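import Vale.Agent.Lib.P327.Oracle

/-!
Baire category for oracle functionals on Cantor space.
-/

namespace Vale.Agent.Lib.P327

open Set Topology

/-- Reals extending a finite string. -/
def Cyl (ρ : List Bool) : Set (ℕ → Bool) := {z | ∀ j b, ρ[j]? = some b → z j = b}

theorem agree_isOpen (y : ℕ → Bool) (k : ℕ) : IsOpen {z : ℕ → Bool | ∀ i < k, z i = y i} := by
  have : {z : ℕ → Bool | ∀ i < k, z i = y i} = ⋂ i ∈ Finset.range k, {z | z i = y i} := by
    ext z; simp
  rw [this]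
  refine isOpen_biInter_finset fun i _ => ?_
  have hc : Continuous fun z : ℕ → Bool => z i := continuous_apply i
  exact (isOpen_discrete {y i}).preimage hc

/-- A continuous Boolean function is locally constant, with explicit finite use. -/
theorem cont_local {f : (ℕ → Bool) → Bool} (hf : Continuous f) (x : ℕ → Bool) :
    ∃ k, ∀ z : ℕ → Bool, (∀ i < k, z i = x i) → f z = f x := by
  have hopen : IsOpen {z | f z = f x} := (isOpen_discrete {f x}).preimage hf
  obtain ⟨I, u, hu, hsub⟩ := isOpen_pi_iff.1 hopen x rfl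
  refine ⟨I.sup id + 1, fun z hz => hsub ?_⟩
  intro i hi
  have hlt : i < I.sup id + 1 := Nat.lt_succ_of_le (Finset.le_sup (f := id) hi)
  have hi' : i ∈ I := hi
  show z i ∈ u i
  rw [hz i hlt]
  exact (hu i hi').2

/-- Baire category: a comeager union of countably many sets is somewhere dense in a piece. -/
theorem exists_dense_of_residual {ι : Type*} [Countable ι] {C : Set (ℕ → Bool)}
    (hC : C ∈ residual (ℕ → Bool)) (P : ι → Set (ℕ → Bool)) (h : ∀ x ∈ C, ∃ i, x ∈ P i) :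
    ∃ (i : ι) (σ : List Bool), ∀ x ∈ Cyl σ, ∀ k : ℕ, ∃ z ∈ C, z ∈ P i ∧ ∀ j < k, z j = x j := by
  have hex : ∃ i, (interior (closure (P i ∩ C))).Nonempty := by
    by_contra hcon
    push Not at hcon
    have hres : ∀ i, (closure (P i ∩ C))ᶜ ∈ residual (ℕ → Bool) := fun i =>
      residual_of_dense_open isClosed_closure.isOpen_compl
        (interior_eq_empty_iff_dense_compl.1 (hcon i))
    have hD : C ∩ ⋂ i, (closure (P i ∩ C))ᶜ ∈ residual (ℕ → Bool) :=
      Filter.inter_mem hC (countable_iInter_mem.2 hres)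
    obtain ⟨x, hx⟩ := (dense_of_mem_residual hD).nonempty
    obtain ⟨i, hi⟩ := h x hx.1
    exact (Set.mem_iInter.1 hx.2 i) (subset_closure ⟨hi, hx.1⟩)
  obtain ⟨i, y, hy⟩ := hex
  obtain ⟨I, u, hu, hsub⟩ := isOpen_pi_iff.1 isOpen_interior y hy
  refine ⟨i, pref y (I.sup id + 1), fun x hx k => ?_⟩
  have hxI : x ∈ interior (closure (P i ∩ C)) := by
    apply hsub
    intro j hj
    have hlt : j < I.sup id + 1 := Nat.lt_succ_of_le (Finset.le_sup (f := id) hj)
    have hj' : j ∈ I := hj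
    have := hx j (y j) (getElem?_pref y hlt)
    show x j ∈ u j
    rw [this]
    exact (hu j hj').2
  have hcl := interior_subset hxI
  obtain ⟨z, hz, hz'⟩ := mem_closure_iff.1 hcl _ (agree_isOpen x k) (fun _ _ => rfl)
  exact ⟨z, hz'.2, hz'.1, hz⟩

theorem mem_cyl_append {ρ τ : List Bool} {x : ℕ → Bool} (h : x ∈ Cyl (ρ ++ τ)) : x ∈ Cyl ρ := by
  intro j b hb
  apply h j b
  rw [List.getElem?_append_left]
  · exact hb
  · by_contra hc
    rw [List.getElem?_eq_none (by omega)] at hb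
    exact absurd hb (by simp)

theorem lt_of_getElem?_eq_some {ρ : List Bool} {j : ℕ} {b : Bool} (h : ρ[j]? = some b) :
    j < ρ.length := by
  by_contra hc
  rw [List.getElem?_eq_none (by omega)] at h
  exact absurd h (by simp)

theorem mem_cyl_of_agree {ρ : List Bool} {x z : ℕ → Bool} (hx : x ∈ Cyl ρ) {k : ℕ}
    (hk : ρ.length ≤ k) (hz : ∀ j < k, z j = x j) : z ∈ Cyl ρ := by
  intro j b hb
  rw [hz j (lt_of_lt_of_le (lt_of_getElem?_eq_some hb) hk)]
  exact hx j b hb

theorem orcL_ext_chi {ρ : List Bool} {x : ℕ → Bool} (h : x ∈ Cyl ρ) : OExt (orcL ρ) (chi x) := by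
  intro i v hv
  rw [mem_orcL] at hv
  obtain ⟨b, hb, rfl⟩ := hv
  exact mem_chi.2 (by rw [h i b hb])

/-- Extend a string by a real. -/
def glue (ρ : List Bool) (z : ℕ → Bool) : ℕ → Bool := fun i => (ρ[i]?).getD (z i)

theorem glue_mem (ρ : List Bool) (z : ℕ → Bool) : glue ρ z ∈ Cyl ρ := by
  intro j b hb
  simp [glue, hb]

theorem pref_eq_append {ρ : List Bool} {z : ℕ → Bool} (hz : z ∈ Cyl ρ) {k : ℕ}
    (hk : ρ.length ≤ k) : pref z k = ρ ++ (pref z k).drop ρ.length := by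
  conv_lhs => rw [← List.take_append_drop ρ.length (pref z k)]
  congr 1
  apply List.ext_getElem?
  intro j
  rw [List.getElem?_take]
  by_cases hj : j < ρ.length
  · rw [if_pos hj, getElem?_pref z (lt_of_lt_of_le hj hk)]
    obtain ⟨b, hb⟩ : ∃ b, ρ[j]? = some b := ⟨ρ[j], List.getElem?_eq_getElem hj⟩
    rw [hb, hz j b hb]
  · rw [if_neg hj, List.getElem?_eq_none (by omega)]

/-- The code `c` computes `S z` for `z` densely in the cylinder of `σ`. -/
def DenseCorrect (S : (ℕ → Bool) → ℕ → Bool) (c : OC) (σ : List Bool) : Prop :=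
  ∀ x ∈ Cyl σ, ∀ k : ℕ, ∃ z, c.eval (chi z) = chi (S z) ∧ ∀ j < k, z j = x j

theorem exists_denseCorrect {S : (ℕ → Bool) → ℕ → Bool} (hT : ∀ x, Tle (S x) x) :
    ∃ c σ, DenseCorrect S c σ := by
  obtain ⟨c, σ, h⟩ := exists_dense_of_residual (C := Set.univ) Filter.univ_mem
    (fun c : OC => {x | c.eval (chi x) = chi (S x)}) (fun x _ => by
      obtain ⟨c, hc⟩ := exists_code (RecursiveIn.iff_nat.1 (hT x))
      exact ⟨c, hc⟩)
  refine ⟨c, σ, fun x hx k => ?_⟩
  obtain ⟨z, -, hz, hz'⟩ := h x hx k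
  exact ⟨z, hz, hz'⟩

/-- A convergent finite computation gives the true value on the whole cylinder. -/
theorem dc_determined {S : (ℕ → Bool) → ℕ → Bool} (hS : Continuous S) {c : OC} {σ : List Bool}
    (hd : DenseCorrect S c σ) {ρ : List Bool} (hρ : Cyl ρ ⊆ Cyl σ) {n v : ℕ}
    (hv : v ∈ c.eval (orcL ρ) n) : ∀ x ∈ Cyl ρ, v = (S x n).toNat := by
  intro x hx
  have hf : Continuous fun z => S z n := (continuous_apply n).comp hS
  obtain ⟨k, hk⟩ := cont_local hf x
  obtain ⟨z, hz, hzx⟩ := hd x (hρ hx) (max k ρ.length)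
  have hzρ : z ∈ Cyl ρ := mem_cyl_of_agree hx (le_max_right _ _) hzx
  have h1 : v ∈ c.eval (chi z) n := eval_mono (orcL_ext_chi hzρ) c n v hv
  rw [hz] at h1
  have h2 := mem_chi.1 h1
  rw [h2, hk z fun i hi => hzx i (lt_of_lt_of_le hi (le_max_left _ _))]

/-- Convergence can be forced by extending any string in the cylinder. -/
theorem dc_converge {S : (ℕ → Bool) → ℕ → Bool} {c : OC} {σ : List Bool}
    (hd : DenseCorrect S c σ) {ρ : List Bool} (hρ : Cyl ρ ⊆ Cyl σ) (n : ℕ) :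
    ∃ τ v, v ∈ c.eval (orcL (ρ ++ τ)) n := by
  obtain ⟨z, hz, hzx⟩ := hd (glue ρ fun _ => false) (hρ (glue_mem _ _)) ρ.length
  have hzρ : z ∈ Cyl ρ := mem_cyl_of_agree (glue_mem _ _) le_rfl hzx
  have h1 : (S z n).toNat ∈ c.eval (chi z) n := by
    rw [hz]
    exact mem_chi.2 rfl
  obtain ⟨k, hk⟩ := eval_compact z c n _ h1
  refine ⟨(pref z (max k ρ.length)).drop ρ.length, (S z n).toNat, ?_⟩
  rw [← pref_eq_append hzρ (le_max_right _ _)]
  exact eval_mono (orcL_pref_mono z (le_max_left _ _)) c n _ hk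

end Vale.Agent.Lib.P327
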