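import Vale.Agent.Lib.P327.Search

/-!
Continuous additive maps reducible to their argument are given by a computable matrix.
-/

namespace Vale.Agent.Lib.P327

open Encodable

/-- Pointwise exclusive or. -/
def bxor (x y : ℕ → Bool) : ℕ → Bool := fun i => xor (x i) (y i)

/-- The `i`th unit vector. -/
def eb (i : ℕ) : ℕ → Bool := fun j => decide (j = i)

/-- Parity of a real on a list of positions. -/
def par (x : ℕ → Bool) : List ℕ → Bool
  | [] => false
  | i :: l => xor (x i) (par x l)

/-- Positions below `k` where `b` holds. -/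
def rr (b : ℕ → Bool) : ℕ → List ℕ
  | 0 => []
  | k + 1 => rr b k ++ (bif b k then [k] else [])

theorem par_append (x : ℕ → Bool) (l₁ l₂ : List ℕ) :
    par x (l₁ ++ l₂) = xor (par x l₁) (par x l₂) := by
  induction l₁ with
  | nil => simp [par]
  | cons i l ih => simp [par, ih]

theorem par_flatMap {x y : ℕ → Bool} {r : ℕ → List ℕ} (h : ∀ i, y i = par x (r i)) (l : List ℕ) :
    par y l = par x (l.flatMap r) := by
  induction l with
  | nil => simp [par]
  | cons i l ih => simp [par, par_append, ih, h i]

theorem par_rr_succ (x b : ℕ → Bool) (k : ℕ) :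
    par x (rr b (k + 1)) = xor (par x (rr b k)) (b k && x k) := by
  rw [rr, par_append]
  cases h : b k <;> simp [par]

theorem toNat_inj {a b : Bool} (h : a.toNat = b.toNat) : a = b := by
  cases a <;> cases b <;> simp_all

/-- Truncation of a real. -/
def trunc (x : ℕ → Bool) (k : ℕ) : ℕ → Bool := fun i => if i < k then x i else false

theorem add_zero_eq {f : (ℕ → Bool) → Bool} (hadd : ∀ x y, f (bxor x y) = xor (f x) (f y)) :
    f (fun _ => false) = false := by
  have h := hadd (fun _ => false) (fun _ => false)
  have h2 : bxor (fun _ => false) (fun _ => false) = fun _ => false := by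
    funext i; simp [bxor]
  rw [h2] at h
  simpa using h

theorem rep_trunc {f : (ℕ → Bool) → Bool} (hadd : ∀ x y, f (bxor x y) = xor (f x) (f y))
    (x : ℕ → Bool) (k : ℕ) : f (trunc x k) = par x (rr (fun i => f (eb i)) k) := by
  induction k with
  | zero =>
    have h : trunc x 0 = fun _ => false := by funext i; simp [trunc]
    rw [h, add_zero_eq hadd]
    rfl
  | succ k ih =>
    rw [par_rr_succ, ← ih]
    cases hx : x k
    · have h : trunc x (k + 1) = trunc x k := by
        funext i
        simp only [trunc]
        by_cases hi : i < k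
        · rw [if_pos hi, if_pos (by omega)]
        · rw [if_neg hi]
          by_cases hik : i = k
          · subst hik; simp [hx]
          · rw [if_neg (by omega)]
      simp [h]
    · have h : trunc x (k + 1) = bxor (trunc x k) (eb k) := by
        funext i
        simp only [trunc, bxor, eb]
        by_cases hi : i < k
        · rw [if_pos hi, if_pos (by omega)]
          simp [show i ≠ k by omega]
        · rw [if_neg hi]
          by_cases hik : i = k
          · subst hik; simp [hx]
          · rw [if_neg (by omega)]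
            simp [hik]
      rw [h, hadd]
      simp

/-- An additive Boolean functional with finite use is a parity. -/
theorem rep {f : (ℕ → Bool) → Bool} (hadd : ∀ x y, f (bxor x y) = xor (f x) (f y)) {B : ℕ}
    (hB : ∀ z : ℕ → Bool, (∀ i < B, z i = false) → f z = false) (x : ℕ → Bool) :
    f x = par x (rr (fun i => f (eb i)) B) := by
  have h1 : x = bxor (trunc x B) (bxor x (trunc x B)) := by
    funext i
    simp only [bxor]
    cases x i <;> cases trunc x B i <;> rfl
  have h2 : f (bxor x (trunc x B)) = false := by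
    apply hB
    intro i hi
    simp [bxor, trunc, hi]
  conv_lhs => rw [h1, hadd, h2]
  simp [rep_trunc hadd x B]

section DC

variable {S : (ℕ → Bool) → ℕ → Bool} {c : OC} {σ : List Bool}

/-- A convergent computation along a string in the cylinder bounds the use of `S`. -/
theorem dc_vanish (hS : Continuous S) (hadd : ∀ x y n, S (bxor x y) n = xor (S x n) (S y n))
    (hd : DenseCorrect S c σ) {ρ : List Bool} (hρ : Cyl ρ ⊆ Cyl σ) {n v : ℕ}
    (hv : v ∈ c.eval (orcL ρ) n) (z : ℕ → Bool) (hz : ∀ i < ρ.length, z i = false) :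
    S z n = false := by
  have hx0 := glue_mem ρ (fun _ => false)
  have hx1 : bxor (glue ρ fun _ => false) z ∈ Cyl ρ := by
    intro j b hb
    have hj := lt_of_getElem?_eq_some hb
    simp only [bxor, hz j hj, Bool.xor_false]
    exact hx0 j b hb
  have h0 := dc_determined hS hd hρ hv _ hx0
  have h1 := dc_determined hS hd hρ hv _ hx1
  rw [hadd] at h1
  have h2 : S (glue ρ fun _ => false) n = xor (S (glue ρ fun _ => false) n) (S z n) :=
    toNat_inj (h0.symm.trans h1)
  revert h2
  cases S (glue ρ fun _ => false) n <;> cases S z n <;> simp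

/-- Flip lemma: two convergent computations along strings differing at one position give
the value of `S` on the unit vector. -/
theorem dc_flip (hS : Continuous S) (hadd : ∀ x y n, S (bxor x y) n = xor (S x n) (S y n))
    (hd : DenseCorrect S c σ) {α τ : List Bool} (hα : Cyl α ⊆ Cyl σ) {n v₁ v₂ : ℕ}
    (h₁ : v₁ ∈ c.eval (orcL (α ++ false :: τ)) n) (h₂ : v₂ ∈ c.eval (orcL (α ++ true :: τ)) n) :
    S (eb α.length) n = xor (Nat.bodd v₁) (Nat.bodd v₂) := by
  have hx0 := glue_mem (α ++ false :: τ) (fun _ => false)
  set x₀ := glue (α ++ false :: τ) (fun _ => false) with hx₀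
  have hx1 : bxor x₀ (eb α.length) ∈ Cyl (α ++ true :: τ) := by
    intro j b hb
    simp only [bxor, eb]
    rcases lt_trichotomy j α.length with hj | hj | hj
    · have hb' : (α ++ false :: τ)[j]? = some b := by
        rw [List.getElem?_append_left hj] at hb ⊢
        exact hb
      simp [show j ≠ α.length by omega, hx0 j b hb']
    · subst hj
      have hb' : (α ++ false :: τ)[α.length]? = some false := by simp
      have hb'' : b = true := by
        simp at hb
        exact hb
      rw [hb'', hx0 _ _ hb']
      simp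
    · have hb' : (α ++ false :: τ)[j]? = some b := by
        obtain ⟨m, rfl⟩ : ∃ m, j = α.length + (m + 1) := ⟨j - α.length - 1, by omega⟩
        rw [List.getElem?_append_right (by omega)] at hb ⊢
        simpa using hb
      simp [show j ≠ α.length by omega, hx0 j b hb']
  have hρ₁ : Cyl (α ++ false :: τ) ⊆ Cyl σ := fun x hx => hα (mem_cyl_append hx)
  have hρ₂ : Cyl (α ++ true :: τ) ⊆ Cyl σ := fun x hx => hα (mem_cyl_append hx)
  have e₁ := dc_determined hS hd hρ₁ h₁ _ hx0
  have e₂ := dc_determined hS hd hρ₂ h₂ _ hx1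
  rw [hadd] at e₂
  rw [e₁, e₂]
  cases S x₀ n <;> cases S (eb α.length) n <;> rfl

/-- Both flipped strings can be made convergent by a common extension. -/
theorem dc_flip_converge (hd : DenseCorrect S c σ) {α : List Bool} (hα : Cyl α ⊆ Cyl σ)
    (n : ℕ) : ∃ τ v₁ v₂, v₁ ∈ c.eval (orcL (α ++ false :: τ)) n ∧
      v₂ ∈ c.eval (orcL (α ++ true :: τ)) n := by
  have hρ₁ : Cyl (α ++ [false]) ⊆ Cyl σ := fun x hx => hα (mem_cyl_append hx)
  obtain ⟨τ₁, v₁, h₁⟩ := dc_converge hd hρ₁ n
  have hρ₂ : Cyl (α ++ [true] ++ τ₁) ⊆ Cyl σ :=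
    fun x hx => hα (mem_cyl_append (mem_cyl_append hx))
  obtain ⟨τ₂, v₂, h₂⟩ := dc_converge hd hρ₂ n
  refine ⟨τ₁ ++ τ₂, v₁, v₂, ?_, ?_⟩
  · have e : α ++ false :: (τ₁ ++ τ₂) = (α ++ [false] ++ τ₁) ++ τ₂ := by simp
    rw [e]
    exact eval_mono (orcL_append_ext _ _) c n v₁ h₁
  · have e : α ++ true :: (τ₁ ++ τ₂) = (α ++ [true] ++ τ₁) ++ τ₂ := by simp
    rw [e]
    exact h₂

end DC

end Vale.Agent.Lib.P327
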