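import Vale.Agent.Lib.P327.Family
import Vale.Agent.Lib.P327.Linear

/-!
An automorphism of the Turing degrees fixing a comeager set of reals is the identity.
-/

namespace Vale.Agent.Lib.P327

open Encodable

/-- The effective join of two reals. -/
def join (x y : ℕ → Bool) : ℕ → Bool := fun n => bif n.bodd then y n.div2 else x n.div2

/-- A pointwise recursive combination of two reals reducible to `z` is reducible to `z`. -/
theorem Tle_comb {x y u z : ℕ → Bool} (hx : Tle x z) (hy : Tle y z) {f g : ℕ → ℕ}
    (hf : Computable f) (hg : Computable g) {op : ℕ → Bool → Bool → Bool}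
    (hop : Computable (fun p : ℕ × Bool × Bool => op p.1 p.2.1 p.2.2))
    (h : ∀ n, u n = op n (x (f n)) (y (g n))) : Tle u z := by
  let O : Set (ℕ →. ℕ) := {chi z}
  have rec_of_comp : ∀ {f : ℕ → ℕ}, Computable f → Nat.RecursiveIn O (fun n => Part.some (f n)) :=
    fun hf => Nat.Partrec.recursiveIn (Partrec.nat_iff.1 hf.partrec)
  have hX : Nat.RecursiveIn O (chi x) := RecursiveIn.iff_nat.1 hx
  have hY : Nat.RecursiveIn O (chi y) := RecursiveIn.iff_nat.1 hy
  let w : ℕ → ℕ := fun q => (op q.unpair.1 (Nat.bodd q.unpair.2.unpair.1)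
    (Nat.bodd q.unpair.2.unpair.2)).toNat
  have hw : Computable w := by
    refine (Primrec.dom_bool Bool.toNat).to_comp.comp (hop.comp (Computable.pair
      (Computable.fst.comp Computable.unpair) (Computable.pair
        (Computable.nat_bodd.comp (Computable.fst.comp (Computable.unpair.comp
          (Computable.snd.comp Computable.unpair))))
        (Computable.nat_bodd.comp (Computable.snd.comp (Computable.unpair.comp
          (Computable.snd.comp Computable.unpair)))))))
  have h1 : Nat.RecursiveIn O (fun n => chi x (f n)) :=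
    (Nat.RecursiveIn.comp hX (rec_of_comp hf)).of_eq fun n => Part.bind_some _ _
  have h2 : Nat.RecursiveIn O (fun n => chi y (g n)) :=
    (Nat.RecursiveIn.comp hY (rec_of_comp hg)).of_eq fun n => Part.bind_some _ _
  have h3 := Nat.RecursiveIn.comp (rec_of_comp hw)
    (Nat.RecursiveIn.pair (rec_of_comp (f := fun n => n) Computable.id) (Nat.RecursiveIn.pair h1 h2))
  refine RecursiveIn.iff_nat.2 (h3.of_eq fun n => ?_)
  apply Part.ext
  intro v
  simp only [chi, seq_eq_bind_map, w, h n, Part.bind_eq_bind, Part.map_eq_map, Part.map_some,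
    Part.bind_some, Nat.unpair_pair]
  cases x (f n) <;> cases y (g n) <;> simp

theorem Tle_of_map {x y : ℕ → Bool} {f : ℕ → ℕ} (hf : Computable f) (h : ∀ n, x n = y (f n)) :
    Tle x y := by
  have h1 : Nat.RecursiveIn {chi y} (fun n => chi y (f n)) :=
    (Nat.RecursiveIn.comp (Nat.RecursiveIn.oracle (chi y) (Set.mem_singleton _))
      (Nat.Partrec.recursiveIn (Partrec.nat_iff.1 hf.partrec))).of_eq fun n => Part.bind_some _ _
  refine RecursiveIn.iff_nat.2 (h1.of_eq fun n => ?_)
  simp [chi, h n]

theorem bodd_two_mul (n : ℕ) : Nat.bodd (2 * n) = false := by simp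

theorem bodd_two_mul_add (n : ℕ) : Nat.bodd (2 * n + 1) = true := by simp

theorem div2_two_mul (n : ℕ) : Nat.div2 (2 * n) = n := by
  rw [Nat.div2_val]; omega

theorem div2_two_mul_add (n : ℕ) : Nat.div2 (2 * n + 1) = n := by
  rw [Nat.div2_val]; omega

theorem Tle_join_left (x y : ℕ → Bool) : Tle x (join x y) := by
  refine Tle_of_map (f := fun n => 2 * n) ?_ fun n => ?_
  · exact (Primrec.nat_mul.comp (Primrec.const 2) Primrec.id).to_comp
  · simp only [join, bodd_two_mul, div2_two_mul, cond_false]

theorem Tle_join_right (x y : ℕ → Bool) : Tle y (join x y) := by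
  refine Tle_of_map (f := fun n => 2 * n + 1) ?_ fun n => ?_
  · exact (Primrec.succ.comp (Primrec.nat_mul.comp (Primrec.const 2) Primrec.id)).to_comp
  · simp only [join, bodd_two_mul_add, div2_two_mul_add, cond_true]

theorem join_le {x y z : ℕ → Bool} (hx : Tle x z) (hy : Tle y z) : Tle (join x y) z := by
  refine Tle_comb hx hy (f := Nat.div2) (g := Nat.div2) Computable.nat_div2 Computable.nat_div2
    (op := fun n a b => bif n.bodd then b else a) ?_ fun n => rfl
  refine (Primrec.cond (Primrec.nat_bodd.comp Primrec.fst) (Primrec.snd.comp Primrec.snd)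
    (Primrec.fst.comp Primrec.snd)).to_comp

theorem bxor_le {x y z : ℕ → Bool} (hx : Tle x z) (hy : Tle y z) : Tle (bxor x y) z := by
  refine Tle_comb hx hy (f := fun n => n) (g := fun n => n) Computable.id Computable.id
    (op := fun _ a b => xor a b) ?_ fun n => rfl
  exact ((Primrec.dom_bool₂ xor).comp (Primrec.fst.comp Primrec.snd)
    (Primrec.snd.comp Primrec.snd)).to_comp

/-- Finite oracle for a join, with independent prefixes of both parts. -/
def orcJ (b : List Bool × List Bool) : ℕ →. ℕ := fun i =>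
  (((bif i.bodd then b.2[i.div2]? else b.1[i.div2]?).map Bool.toNat : Option ℕ) : Part ℕ)

theorem orcJ_partrec : Partrec fun p : (List Bool × List Bool) × ℕ => orcJ p.1 p.2 := by
  have h : Computable fun p : (List Bool × List Bool) × ℕ =>
      (bif p.2.bodd then p.1.2[p.2.div2]? else p.1.1[p.2.div2]?).map Bool.toNat := by
    refine Computable.option_map ?_ ((Primrec.dom_bool Bool.toNat).to_comp.comp Computable.snd).to₂
    exact Computable.cond (Computable.nat_bodd.comp Computable.snd)
      (Computable.list_getElem?.comp (Computable.snd.comp Computable.fst)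
        (Computable.nat_div2.comp Computable.snd))
      (Computable.list_getElem?.comp (Computable.fst.comp Computable.fst)
        (Computable.nat_div2.comp Computable.snd))
  exact Computable.ofOption h

theorem mem_orcJ {b : List Bool × List Bool} {i v : ℕ} :
    v ∈ orcJ b i ↔ ∃ c, (bif i.bodd then b.2[i.div2]? else b.1[i.div2]?) = some c ∧ v = c.toNat := by
  unfold orcJ
  simp only [Part.mem_coe, Option.mem_def, Option.map_eq_some_iff]
  constructor
  · rintro ⟨c, hc, rfl⟩; exact ⟨c, hc, rfl⟩
  · rintro ⟨c, hc, rfl⟩; exact ⟨c, hc, rfl⟩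

theorem pref_mem_cyl (x : ℕ → Bool) (k : ℕ) : x ∈ Cyl (pref x k) := by
  intro j b hb
  have hj := lt_of_getElem?_eq_some hb
  rw [length_pref] at hj
  rw [getElem?_pref x hj] at hb
  exact Option.some.inj hb

theorem orcJ_ext {A G : ℕ → Bool} {α ρ : List Bool} (hA : A ∈ Cyl α) (hG : G ∈ Cyl ρ) :
    OExt (orcJ (α, ρ)) (chi (join A G)) := by
  intro i v hv
  rw [mem_orcJ] at hv
  obtain ⟨c, hc, rfl⟩ := hv
  refine mem_chi.2 ?_
  cases hi : i.bodd
  · rw [hi] at hc
    simp only [join, hi, cond_false]
    rw [hA _ _ hc]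
  · rw [hi] at hc
    simp only [join, hi, cond_true]
    rw [hG _ _ hc]

theorem orcJ_of_pref (A G : ℕ → Bool) (k : ℕ) :
    OExt (orcL (pref (join A G) k)) (orcJ (pref A k, pref G k)) := by
  intro i v hv
  rw [mem_orcL] at hv
  obtain ⟨b, hb, rfl⟩ := hv
  have hi := lt_of_getElem?_eq_some hb
  rw [length_pref] at hi
  rw [getElem?_pref _ hi] at hb
  have hb' := Option.some.inj hb
  rw [mem_orcJ]
  have hdiv : i.div2 < k := by
    rw [Nat.div2_val]
    omega
  refine ⟨b, ?_, rfl⟩
  rw [← hb']
  cases hi' : i.bodd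
  · simp only [join, hi', cond_false]
    exact getElem?_pref A hdiv
  · simp only [join, hi', cond_true]
    exact getElem?_pref G hdiv

theorem orcJ_mono_left (A : ℕ → Bool) {k k' : ℕ} (h : k ≤ k') (ρ : List Bool) :
    OExt (orcJ (pref A k, ρ)) (orcJ (pref A k', ρ)) := by
  intro i v hv
  rw [mem_orcJ] at hv ⊢
  obtain ⟨c, hc, rfl⟩ := hv
  refine ⟨c, ?_, rfl⟩
  cases hi : i.bodd
  · rw [hi] at hc
    simp only [cond_false] at hc ⊢
    have hlt := lt_of_getElem?_eq_some hc
    rw [length_pref] at hlt
    rw [getElem?_pref A hlt] at hc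
    rw [getElem?_pref A (lt_of_lt_of_le hlt h)]
    exact hc
  · rw [hi] at hc
    exact hc

/-- If a functional computes `Z` from `A ⊕ z` for a dense set of `z` in a cylinder
then `Z` is reducible to `A`. -/
theorem Tle_of_dense {A Z : ℕ → Bool} {c : OC} {σ : List Bool}
    (hd : ∀ x ∈ Cyl σ, ∀ k : ℕ, ∃ z, c.eval (chi (join A z)) = chi Z ∧ ∀ j < k, z j = x j) :
    Tle Z A := by
  obtain ⟨run, hrun, hsound, hcomplete⟩ := exists_run_family (O := orcJ) orcJ_partrec c
  let test : List Bool × ℕ × ℕ → Option ℕ := fun a =>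
    (decode (α := List Bool × ℕ) a.2.2).bind fun p => run (p.2, (a.1, σ ++ p.1), a.2.1)
  have ht : Primrec test := by
    have hg : Primrec₂ (fun (a : List Bool × ℕ × ℕ) (p : List Bool × ℕ) =>
        run (p.2, (a.1, σ ++ p.1), a.2.1)) := by
      refine hrun.comp (Primrec.pair (Primrec.snd.comp Primrec.snd) (Primrec.pair
        (Primrec.pair (Primrec.fst.comp Primrec.fst) (Primrec.list_append.comp (Primrec.const σ)
          (Primrec.fst.comp Primrec.snd)))
        (Primrec.fst.comp (Primrec.snd.comp Primrec.fst))))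
    exact Primrec.option_bind (Primrec.decode.comp (Primrec.snd.comp Primrec.snd)) hg
  refine Tle_of_search ht (fun n => ?_) (fun n m w v hv => ?_)
  · obtain ⟨z, hz, hzx⟩ := hd (glue σ fun _ => false) (glue_mem _ _) σ.length
    have hzσ : z ∈ Cyl σ := mem_cyl_of_agree (glue_mem _ _) le_rfl hzx
    have h1 : (Z n).toNat ∈ c.eval (chi (join A z)) n := by
      rw [hz]
      exact mem_chi.2 rfl
    obtain ⟨k, hk⟩ := eval_compact (join A z) c n _ h1
    have hmax : k ≤ max k σ.length := le_max_left _ _
    have h2 := eval_mono (orcL_pref_mono (join A z) hmax) c n _ hk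
    have h3 := eval_mono (orcJ_of_pref A z _) c n _ h2
    rw [pref_eq_append hzσ (le_max_right k _)] at h3
    obtain ⟨t, ht⟩ := hcomplete _ _ _ h3
    refine ⟨max k σ.length, encode (((pref z (max k σ.length)).drop σ.length, t)), (Z n).toNat, ?_⟩
    simp only [test, encodek, Option.bind_some]
    exact ht t le_rfl
  · simp only [test, Option.bind_eq_some_iff] at hv
    obtain ⟨p, -, hp⟩ := hv
    have h1 := hsound _ _ _ _ hp
    obtain ⟨z, hz, hzx⟩ := hd (glue (σ ++ p.1) fun _ => false)
      (mem_cyl_append (glue_mem _ _)) (σ ++ p.1).length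
    have hzσ : z ∈ Cyl (σ ++ p.1) := mem_cyl_of_agree (glue_mem _ _) le_rfl hzx
    have h2 := eval_mono (orcJ_ext (pref_mem_cyl A m) hzσ) c n v h1
    rw [hz] at h2
    exact mem_chi.1 h2

/-- Translation preserves residual sets. -/
theorem bxor_preimage_residual {C : Set (ℕ → Bool)} (hC : C ∈ residual (ℕ → Bool))
    (A : ℕ → Bool) : (fun G => bxor G A) ⁻¹' C ∈ residual (ℕ → Bool) := by
  have hcont : Continuous fun G : ℕ → Bool => bxor G A := by
    refine continuous_pi fun n => ?_
    have : Continuous fun G : ℕ → Bool => G n := continuous_apply n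
    exact (continuous_of_discreteTopology (f := fun b : Bool => xor b (A n))).comp this
  have hinv : ∀ G, bxor (bxor G A) A = G := by
    intro G
    funext n
    simp [bxor]
  let h : (ℕ → Bool) ≃ₜ (ℕ → Bool) :=
    { toFun := fun G => bxor G A
      invFun := fun G => bxor G A
      left_inv := hinv
      right_inv := hinv
      continuous_toFun := hcont
      continuous_invFun := hcont }
  obtain ⟨S, hS1, hS2, hS3, hS4⟩ := mem_residual_iff.1 hC
  refine mem_residual_iff.2 ⟨(fun t => h ⁻¹' t) '' S, ?_, ?_, hS3.image _, ?_⟩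
  · rintro _ ⟨t, ht, rfl⟩
    exact (hS1 t ht).preimage h.continuous
  · rintro _ ⟨t, ht, rfl⟩
    exact (hS2 t ht).preimage h.isOpenMap
  · intro G hG
    apply hS4
    intro t ht
    exact hG _ ⟨t, ht, rfl⟩

/-- One-sided comeager lemma: if `π a ≤ a` for comeager many reals then for all reals. -/
theorem le_of_comeager (π : TDeg ≃o TDeg) {C : Set (ℕ → Bool)} (hC : C ∈ residual (ℕ → Bool))
    (h : ∀ x ∈ C, π (deg x) ≤ deg x) (A : ℕ → Bool) : π (deg A) ≤ deg A := by
  obtain ⟨Z, hZ⟩ := deg_surjective (π (deg A))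
  have hC' : C ∩ (fun G => bxor G A) ⁻¹' C ∈ residual (ℕ → Bool) :=
    Filter.inter_mem hC (bxor_preimage_residual hC A)
  have key : ∀ G ∈ C ∩ (fun G => bxor G A) ⁻¹' C, Tle Z (join A G) := by
    intro G hG
    set B := bxor G A with hB
    set J := join G B with hJ
    have hAJ : Tle A J := by
      have e : A = bxor G B := by
        funext n
        simp only [bxor, hB]
        cases G n <;> cases A n <;> rfl
      rw [e]
      exact bxor_le (Tle_join_left _ _) (Tle_join_right _ _)
    have hJ' : π (deg J) ≤ deg J := by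
      obtain ⟨w, hw⟩ := deg_surjective (π.symm (deg J))
      have h1 : Tle G w := by
        rw [← deg_le_deg, hw, ← π.le_iff_le, π.apply_symm_apply]
        exact (h G hG.1).trans (Tle_join_left _ _)
      have h2 : Tle B w := by
        rw [← deg_le_deg, hw, ← π.le_iff_le, π.apply_symm_apply]
        exact (h B hG.2).trans (Tle_join_right _ _)
      have h3 : deg J ≤ π.symm (deg J) := by
        rw [← hw]
        exact join_le h1 h2
      have h4 := π.monotone h3
      rwa [π.apply_symm_apply] at h4
    have h5 : deg Z ≤ deg J := by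
      rw [hZ]
      exact (π.monotone hAJ).trans hJ'
    have h6 : Tle J (join A G) := by
      refine join_le (Tle_join_right _ _) ?_
      exact bxor_le (Tle_join_right _ _) (Tle_join_left _ _)
    exact Tle_trans h5 h6
  obtain ⟨c, σ, hd⟩ := exists_dense_of_residual hC'
    (fun c : OC => {G | c.eval (chi (join A G)) = chi Z}) (fun G hG => by
      obtain ⟨c, hc⟩ := exists_code (RecursiveIn.iff_nat.1 (key G hG))
      exact ⟨c, hc⟩)
  have hZA : Tle Z A := by
    refine Tle_of_dense (c := c) (σ := σ) fun x hx k => ?_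
    obtain ⟨z, -, hz, hzx⟩ := hd x hx k
    exact ⟨z, hz, hzx⟩
  rw [← hZ]
  exact hZA

/-- An automorphism of the Turing degrees fixing the degrees of comeager many reals is trivial. -/
theorem main_comeager (π : TDeg ≃o TDeg) {C : Set (ℕ → Bool)} (hC : C ∈ residual (ℕ → Bool))
    (h : ∀ x ∈ C, π (deg x) = deg x) : π = OrderIso.refl TDeg := by
  have h1 := le_of_comeager π hC fun x hx => (h x hx).le
  have h2 := le_of_comeager π.symm hC fun x hx => by
    rw [OrderIso.symm_apply_le, h x hx]
  ext a
  obtain ⟨x, rfl⟩ := deg_surjective a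
  refine le_antisymm (h1 x) ?_
  have := h2 x
  rwa [OrderIso.symm_apply_le] at this

end Vale.Agent.Lib.P327
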