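import Vale.Agent.Lib.P327.Iterate

/-!
Automorphisms of the Turing degrees induced by continuous additive bijections are trivial.
-/

namespace Vale.Agent.Lib.P327

open Encodable Denumerable

/-- The shift of a real. -/
def sh (y : ℕ → Bool) : ℕ → Bool := fun n => y (n + 1)

theorem Tle_sh (y : ℕ → Bool) : Tle (sh y) y := by
  have h := Nat.RecursiveIn.comp (O := {chi y}) (Nat.RecursiveIn.oracle (chi y) (Set.mem_singleton _))
    Nat.RecursiveIn.succ
  refine RecursiveIn.iff_nat.2 (h.of_eq fun n => ?_)
  exact Part.bind_some _ _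

theorem sh_bxor (x y : ℕ → Bool) : sh (bxor x y) = bxor (sh x) (sh y) := rfl

/-- The inverse of an additive bijection is additive. -/
theorem symm_additive (F : (ℕ → Bool) ≃ₜ (ℕ → Bool))
    (hadd : ∀ x y n, F (bxor x y) n = xor (F x n) (F y n)) (x y : ℕ → Bool) :
    F.symm (bxor x y) = bxor (F.symm x) (F.symm y) := by
  apply F.injective
  funext n
  rw [hadd]
  simp [bxor]

/-- If the conjugated shift is pointwise reducible then the map itself is. -/
theorem core (F : (ℕ → Bool) ≃ₜ (ℕ → Bool))
    (hadd : ∀ x y n, F (bxor x y) n = xor (F x n) (F y n))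
    (hT : ∀ x, Tle (F.symm (sh (F x))) x) : ∀ x, Tle (F x) x := by
  let S : (ℕ → Bool) → ℕ → Bool := fun x => F.symm (sh (F x))
  have hcont : Continuous S := by
    have hsh : Continuous sh := continuous_pi fun n => continuous_apply (n + 1)
    exact F.symm.continuous.comp (hsh.comp F.continuous)
  have hF2 : ∀ x y, F (bxor x y) = bxor (F x) (F y) := fun x y => funext fun n => hadd x y n
  have hSadd : ∀ x y n, S (bxor x y) n = xor (S x n) (S y n) := by
    intro x y n
    show F.symm (sh (F (bxor x y))) n = xor (F.symm (sh (F x)) n) (F.symm (sh (F y)) n)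
    rw [hF2, sh_bxor, symm_additive F hadd]
    rfl
  obtain ⟨r, hr, hrs⟩ := exists_matrix hcont hSadd hT
  have hadd0 : ∀ x y, (fun z => F z 0) (bxor x y) = xor ((fun z => F z 0) x) ((fun z => F z 0) y) :=
    fun x y => hadd x y 0
  have hc0 : Continuous fun z : ℕ → Bool => F z 0 := (continuous_apply 0).comp F.continuous
  obtain ⟨B, hB⟩ := cont_local hc0 (fun _ => false)
  have hvan : ∀ z : ℕ → Bool, (∀ i < B, z i = false) → (fun z => F z 0) z = false := by
    intro z hz
    have h1 := hB z hz
    simp only at h1 ⊢
    rw [h1]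
    exact add_zero_eq (f := fun z => F z 0) hadd0
  let R : List ℕ := rr (fun i => (fun z => F z 0) (eb i)) B
  have h0 : ∀ x, F x 0 = par x R := fun x => rep hadd0 hvan x
  let t : ℕ → List ℕ := fun n => Nat.rec (motive := fun _ => List ℕ) R (fun _ l => l.flatMap r) n
  have ht : Computable t := by
    have hfm := computable_flatMap hr
    have hh : Computable₂ (fun (_ : ℕ) (q : ℕ × List ℕ) => q.2.flatMap r) :=
      (hfm.comp (Computable.snd.comp Computable.snd)).to₂
    exact Computable.nat_rec Computable.id (Computable.const R) hh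
  have hmain : ∀ n x, F x n = par x (t n) := by
    intro n
    induction n with
    | zero => exact h0
    | succ n ih =>
      intro x
      have e1 : F x (n + 1) = F (S x) n := by
        show sh (F x) n = F (F.symm (sh (F x))) n
        rw [F.apply_symm_apply]
      rw [e1, ih]
      exact par_flatMap (fun i => hrs x i) _
  exact fun x => Tle_of_par ht (fun n => hmain n x)

/-- Automorphisms of the Turing degrees induced by additive homeomorphisms are trivial. -/
theorem main_linear (π : TDeg ≃o TDeg) (F : (ℕ → Bool) ≃ₜ (ℕ → Bool))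
    (hF : ∀ x y n, F (fun i => xor (x i) (y i)) n = xor (F x n) (F y n))
    (hπ : ∀ x, π (deg x) = deg (F x)) : π = OrderIso.refl TDeg := by
  have hadd : ∀ x y n, F (bxor x y) n = xor (F x n) (F y n) := hF
  have hA : ∀ x, Tle (F x) x := by
    refine core F hadd fun x => ?_
    rw [← deg_le_deg, ← π.le_iff_le, hπ, hπ, deg_le_deg, F.apply_symm_apply]
    exact Tle_sh _
  have hadd' : ∀ x y n, F.symm (bxor x y) n = xor (F.symm x n) (F.symm y n) := fun x y n => by
    rw [symm_additive F hadd]
    rfl
  have hB : ∀ y, Tle (F.symm y) y := by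
    refine core F.symm hadd' fun x => ?_
    have e : F.symm.symm = F := rfl
    rw [e]
    obtain ⟨w, rfl⟩ := F.surjective x
    rw [F.symm_apply_apply, ← deg_le_deg, ← hπ, ← hπ, π.le_iff_le, deg_le_deg]
    exact Tle_sh _
  have hfix : ∀ x, π (deg x) = deg x := by
    intro x
    rw [hπ]
    refine le_antisymm (hA x) ?_
    have h := hB (F x)
    rw [F.symm_apply_apply] at h
    exact h
  ext a
  obtain ⟨x, rfl⟩ := deg_surjective a
  exact hfix x

end Vale.Agent.Lib.P327
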