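import Vale.Agent.Lib.P327.DegZ

/-!
A continuous map of bounded degree, computed densely in a cylinder by a functional, is computable
on that cylinder.
-/

namespace Vale.Agent.Lib.P327

open Encodable

/-- All strings of a given length. -/
def strs : ℕ → List (List Bool)
  | 0 => [[]]
  | k + 1 => (strs k).flatMap fun τ => [false :: τ, true :: τ]

theorem mem_strs : ∀ (k : ℕ) (τ : List Bool), τ.length = k → τ ∈ strs k
  | 0, τ, h => by
    have : τ = [] := List.length_eq_zero_iff.1 h
    simp [strs, this]
  | k + 1, τ, h => by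
    cases τ with
    | nil => simp at h
    | cons b τ' =>
      have h' : τ'.length = k := by simpa using h
      have hm := mem_strs k τ' h'
      simp only [strs, List.mem_flatMap]
      refine ⟨τ', hm, ?_⟩
      cases b <;> simp

theorem strs_primrec : Primrec strs := by
  have h : Primrec₂ (fun (_ : ℕ) (l : List (List Bool)) =>
      l.flatMap fun τ => [false :: τ, true :: τ]) := by
    refine Primrec.list_flatMap Primrec.snd ?_
    refine Primrec₂.mk ?_
    have h1 : ∀ b : Bool, Primrec (fun p : (ℕ × List (List Bool)) × List Bool => b :: p.2) :=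
      fun b => Primrec.list_cons.comp (Primrec.const b) Primrec.snd
    exact Primrec.list_cons.comp (h1 false)
      (Primrec.list_cons.comp (h1 true) (Primrec.const []))
  refine (Primrec.nat_rec₁ [[]] h).of_eq fun n => ?_
  induction n with
  | zero => rfl
  | succ n ih =>
    simp only [strs]
    rw [← ih]

/-- The Boolean test that a property holds along a list. -/
def foldAll {α : Type*} (p : α → Bool) (l : List α) : Bool :=
  l.foldr (fun a acc => and (p a) acc) true

theorem foldAll_iff {α : Type*} (p : α → Bool) (l : List α) :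
    foldAll p l = true ↔ ∀ a ∈ l, p a = true := by
  induction l with
  | nil => simp [foldAll]
  | cons a l ih =>
    simp only [foldAll, List.foldr_cons, Bool.and_eq_true, List.mem_cons, forall_eq_or_imp] at ih ⊢
    rw [ih]

section Tail

variable {S : (ℕ → Bool) → ℕ → Bool} {c : OC} {σ : List Bool}

/-- One tail makes the functional converge after all strings of a finite list. -/
theorem exists_tail (hd : DenseCorrect S c σ) (n : ℕ) (l : List (List Bool)) :
    ∃ t : List Bool, ∀ τ ∈ l, ∃ v, v ∈ c.eval (orcL (σ ++ τ ++ t)) n := by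
  induction l with
  | nil => exact ⟨[], fun τ hτ => absurd hτ (by simp)⟩
  | cons τ₀ l ih =>
    obtain ⟨t, ht⟩ := ih
    obtain ⟨t', v', hv'⟩ := dc_converge hd (ρ := σ ++ τ₀ ++ t)
      (fun x hx => mem_cyl_append (mem_cyl_append hx)) n
    refine ⟨t ++ t', fun τ hτ => ?_⟩
    rw [List.mem_cons] at hτ
    rcases hτ with rfl | hτ
    · refine ⟨v', ?_⟩
      rw [← List.append_assoc]
      exact hv'
    · obtain ⟨v, hv⟩ := ht τ hτ
      refine ⟨v, ?_⟩
      rw [← List.append_assoc]
      exact eval_mono (orcL_append_ext _ _) c n v hv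

/-- Next position: a computable tail length at every stage. -/
theorem exists_next (hd : DenseCorrect S c σ) :
    ∃ next : ℕ × ℕ → ℕ, Computable next ∧ ∀ n m, ∃ t : List Bool, next (n, m) = m + t.length ∧
      ∀ τ : List Bool, τ.length = m - σ.length → ∃ v, v ∈ c.eval (orcL (σ ++ τ ++ t)) n := by
  obtain ⟨run, hrun, hsound, hcomplete⟩ := exists_run c
  let test : ℕ × ℕ → List Bool × ℕ → Option ℕ := fun a p =>
    bif foldAll (fun τ => (run (p.2, σ ++ τ ++ p.1, a.1)).isSome) (strs (a.2 - σ.length))
    then some (a.2 + p.1.length) else none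
  have ht : Primrec₂ test := by
    have h1 : Primrec (fun q : (ℕ × ℕ) × (List Bool × ℕ) =>
        foldAll (fun τ => (run (q.2.2, σ ++ τ ++ q.2.1, q.1.1)).isSome)
          (strs (q.1.2 - σ.length))) := by
      refine Primrec.list_foldr (h := fun (q : (ℕ × ℕ) × (List Bool × ℕ)) (y : List Bool × Bool) =>
        and (run (q.2.2, σ ++ y.1 ++ q.2.1, q.1.1)).isSome y.2) ?_ (Primrec.const true) ?_
      · exact strs_primrec.comp (Primrec.nat_sub.comp (Primrec.snd.comp Primrec.fst)
          (Primrec.const σ.length))
      · refine Primrec₂.mk ?_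
        refine Primrec.and.comp ?_ (Primrec.snd.comp Primrec.snd)
        refine Primrec.option_isSome.comp (hrun.comp ?_)
        refine Primrec.pair (Primrec.snd.comp (Primrec.snd.comp Primrec.fst)) (Primrec.pair ?_
          (Primrec.fst.comp (Primrec.fst.comp Primrec.fst)))
        exact Primrec.list_append.comp (Primrec.list_append.comp (Primrec.const σ)
          (Primrec.fst.comp Primrec.snd)) (Primrec.fst.comp (Primrec.snd.comp Primrec.fst))
    refine Primrec₂.mk (Primrec.cond h1 ?_ (Primrec.const none))
    exact Primrec.option_some.comp (Primrec.nat_add.comp (Primrec.snd.comp Primrec.fst)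
      (Primrec.list_length.comp (Primrec.fst.comp Primrec.snd)))
  have hex : ∀ a, ∃ p s, test a p = some s := by
    rintro ⟨n, m⟩
    obtain ⟨t, ht⟩ := exists_tail hd n (strs (m - σ.length))
    have hk : ∃ k₀, ∀ k, k₀ ≤ k → ∀ τ ∈ strs (m - σ.length),
        (run (k, σ ++ τ ++ t, n)).isSome = true := by
      generalize strs (m - σ.length) = l at ht
      induction l with
      | nil => exact ⟨0, fun _ _ τ hτ => absurd hτ (by simp)⟩
      | cons τ₀ l ih =>
        obtain ⟨k₀, hk⟩ := ih fun τ hτ => ht τ (List.mem_cons_of_mem _ hτ)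
        obtain ⟨v, hv⟩ := ht τ₀ List.mem_cons_self
        obtain ⟨k₁, hk₁⟩ := hcomplete _ _ _ hv
        refine ⟨max k₀ k₁, fun k hkk τ hτ => ?_⟩
        rw [List.mem_cons] at hτ
        rcases hτ with rfl | hτ
        · rw [hk₁ _ (le_trans (le_max_right _ _) hkk)]
          rfl
        · exact hk k (le_trans (le_max_left _ _) hkk) τ hτ
    obtain ⟨k₀, hk₀⟩ := hk
    have hk := hk₀ k₀ le_rfl
    generalize k₀ = k at hk
    refine ⟨(t, k), m + t.length, ?_⟩
    have h2 : foldAll (fun τ => (run (k, σ ++ τ ++ t, n)).isSome) (strs (m - σ.length)) = true :=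
      (foldAll_iff _ _).2 hk
    simp only [test, h2, cond_true]
  obtain ⟨next, hnext, hspec⟩ := search ht hex
  refine ⟨next, hnext, fun n m => ?_⟩
  obtain ⟨p, hp⟩ := hspec (n, m)
  simp only [test] at hp
  cases hc : foldAll (fun τ => (run (p.2, σ ++ τ ++ p.1, n)).isSome) (strs (m - σ.length)) with
  | false =>
    rw [hc] at hp
    simp at hp
  | true =>
    rw [hc] at hp
    refine ⟨p.1, (Option.some.inj (hp.symm.trans rfl)), fun τ hτ => ?_⟩
    have h3 := (foldAll_iff _ _).1 hc τ (mem_strs _ _ hτ)
    obtain ⟨v, hv⟩ := Option.isSome_iff_exists.1 h3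
    exact ⟨v, hsound _ _ _ _ hv⟩

/-- The stages of the layer construction. -/
noncomputable def stageM (σ : List Bool) (next : ℕ × ℕ → ℕ) (n : ℕ) : ℕ → ℕ
  | 0 => σ.length
  | j + 1 => next (n, stageM σ next n j)

theorem stageM_computable (σ : List Bool) {next : ℕ × ℕ → ℕ} (hnext : Computable next) :
    Computable (fun q : ℕ × ℕ => stageM σ next q.1 q.2) := by
  have hh : Computable₂ (fun (q : ℕ × ℕ) (y : ℕ × ℕ) => next (q.1, y.2)) :=
    Computable₂.mk (hnext.comp (Computable.pair (Computable.fst.comp Computable.fst)
      (Computable.snd.comp Computable.snd)))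
  refine (Computable.nat_rec Computable.snd (Computable.const σ.length) hh).of_eq fun q => ?_
  obtain ⟨n, j⟩ := q
  simp only
  induction j with
  | zero => rfl
  | succ j ih =>
    simp only [stageM]
    rw [← ih]

/-- Membership in the cylinder of a prefix followed by a tail. -/
theorem mem_cyl_pref_append {u : ℕ → Bool} {m : ℕ} {t : List Bool}
    (h : ∀ i b, t[i - m]? = some b → m ≤ i → u i = b) : u ∈ Cyl (pref u m ++ t) := by
  intro i b hb
  by_cases hi : i < m
  · rw [List.getElem?_append_left (by rw [length_pref]; exact hi), getElem?_pref u hi] at hb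
    exact Option.some.inj hb
  · rw [List.getElem?_append_right (by rw [length_pref]; omega), length_pref] at hb
    exact h i b hb (by omega)

/-- Dependence only on a computable initial segment. -/
theorem dep_bound {d : ℕ} (hS : Continuous S) (hd : DenseCorrect S c σ) {next : ℕ × ℕ → ℕ}
    (hnext : ∀ n m, ∃ t : List Bool, next (n, m) = m + t.length ∧
      ∀ τ : List Bool, τ.length = m - σ.length → ∃ v, v ∈ c.eval (orcL (σ ++ τ ++ t)) n)
    (n : ℕ) (hdeg : DegB (d + 1) fun x => S x n) {z z' : ℕ → Bool} (hz : z ∈ Cyl σ)
    (hzz : ∀ i < stageM σ next n (d + 1), z i = z' i) : S z n = S z' n := by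
  classical
  let t : ℕ → List Bool := fun j => (hnext n (stageM σ next n j)).choose
  have ht1 : ∀ j, stageM σ next n (j + 1) = stageM σ next n j + (t j).length := fun j =>
    (hnext n (stageM σ next n j)).choose_spec.1
  have ht2 : ∀ j (τ : List Bool), τ.length = stageM σ next n j - σ.length →
      ∃ v, v ∈ c.eval (orcL (σ ++ τ ++ t j)) n := fun j =>
    (hnext n (stageM σ next n j)).choose_spec.2
  have hmono : Monotone (stageM σ next n) := monotone_nat_of_le_succ fun j => by
    rw [ht1]
    omega
  have hL : ∀ j, σ.length ≤ stageM σ next n j := fun j => hmono (Nat.zero_le j)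
  let w : ℕ → ℕ → Bool := fun j =>
    glue (σ ++ List.replicate (stageM σ next n j - σ.length) false ++ t j) (fun _ => false)
  have hw : ∀ j, w j ∈ Cyl σ := fun j =>
    mem_cyl_append (τ := List.replicate (stageM σ next n j - σ.length) false ++ t j) (by
      rw [← List.append_assoc]
      exact glue_mem _ _)
  let a : ℕ → Bool := bxor z z'
  have ha : ∀ i, i < stageM σ next n (d + 1) → a i = false := by
    intro i hi
    simp only [a, bxor, hzz i hi]
    simp
  have hv := vanish_layers (σ := σ) d (fun x => xor (S (bxor x a) n) (S x n)) (stageM σ next n) w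
    (hdeg.deriv a) hmono le_rfl hw (fun j hj u hu hlayer => by
      set m := stageM σ next n j with hm
      obtain ⟨v, hv⟩ := ht2 j ((pref u m).drop σ.length) (by simp only [List.length_drop, length_pref, hm])
      have hpref := pref_eq_append hu (hL j)
      rw [← hpref] at hv
      have hcyl : u ∈ Cyl (pref u m ++ t j) := by
        refine mem_cyl_pref_append fun i b hb hi => ?_
        have hlt : i - m < (t j).length := lt_of_getElem?_eq_some hb
        have h1 := hlayer i hi (by rw [ht1]; omega)
        rw [h1]
        simp only [w, glue]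
        have e2 : (σ ++ List.replicate (stageM σ next n j - σ.length) false).length = m := by
          simp only [List.length_append, List.length_replicate, hm]
          have := hL j
          omega
        have e : (σ ++ List.replicate (stageM σ next n j - σ.length) false ++ t j)[i]? =
            some b := by
          rw [List.getElem?_append_right (by rw [e2]; exact hi), e2]
          exact hb
        rw [e]
        rfl
      have hρ : Cyl (pref u m ++ t j) ⊆ Cyl σ := by
        intro x hx
        rw [hpref] at hx
        exact mem_cyl_append (mem_cyl_append hx)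
      have h1 := dc_determined hS hd hρ hv u hcyl
      have hcyl2 : bxor u a ∈ Cyl (pref u m ++ t j) := by
        intro i b hb
        have hi : i < (pref u m ++ t j).length := lt_of_getElem?_eq_some hb
        have hi2 : i < stageM σ next n (d + 1) := by
          have h3 : stageM σ next n (j + 1) ≤ stageM σ next n (d + 1) := hmono (by omega)
          rw [ht1] at h3
          simp [length_pref] at hi
          omega
        simp only [bxor, ha i hi2, Bool.xor_false]
        exact hcyl i b hb
      have h2 := dc_determined hS hd hρ hv _ hcyl2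
      have h3 : S (bxor u a) n = S u n := toNat_inj (h2.symm.trans h1)
      simp only [h3]
      simp) z hz
  have h4 : S (bxor z a) n = S z n := by
    revert hv
    cases S (bxor z a) n <;> cases S z n <;> simp
  simp only [a, bxor_bxor_self] at h4
  exact h4.symm

/-- Computability on the cylinder. -/
theorem exists_cyl {d : ℕ} (hS : Continuous S) (hd : DenseCorrect S c σ)
    (hdeg : ∀ n, DegB (d + 1) fun x => S x n) :
    ∃ (B : ℕ → ℕ) (val : ℕ × List Bool → Bool), Computable B ∧ Computable val ∧
      ∀ n (v : List Bool) (z : ℕ → Bool), z ∈ Cyl (σ ++ v) → B n ≤ (σ ++ v).length →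
        val (n, v) = S z n := by
  obtain ⟨next, hnext, hspec⟩ := exists_next hd
  obtain ⟨run, hrun, hsound, hcomplete⟩ := exists_run c
  have hB : Computable (fun n => stageM σ next n (d + 1)) :=
    (stageM_computable σ hnext).comp (Computable.pair Computable.id (Computable.const (d + 1)))
  let test : ℕ × List Bool → List Bool × ℕ → Option Bool := fun q p =>
    (run (p.2, σ ++ q.2 ++ p.1, q.1)).map Nat.bodd
  have ht : Primrec₂ test := by
    refine Primrec.option_map (hrun.comp ?_) (Primrec.nat_bodd.comp Primrec.snd).to₂
    exact Primrec.pair (Primrec.snd.comp Primrec.snd) (Primrec.pair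
      (Primrec.list_append.comp (Primrec.list_append.comp (Primrec.const σ)
        (Primrec.snd.comp Primrec.fst)) (Primrec.fst.comp Primrec.snd))
      (Primrec.fst.comp Primrec.fst))
  have hex : ∀ q, ∃ p s, test q p = some s := by
    rintro ⟨n, v⟩
    obtain ⟨t, w, hw⟩ := dc_converge hd (ρ := σ ++ v) (fun x hx => mem_cyl_append hx) n
    obtain ⟨k₀, hk₀⟩ := hcomplete _ _ _ hw
    refine ⟨(t, k₀), Nat.bodd w, ?_⟩
    simp only [test]
    rw [hk₀ k₀ le_rfl]
    rfl
  obtain ⟨val, hval, hvs⟩ := search ht hex
  refine ⟨_, val, hB, hval, fun n v z hz hlen => ?_⟩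
  obtain ⟨p, hp⟩ := hvs (n, v)
  simp only [test, Option.map_eq_some_iff] at hp
  obtain ⟨w, hw, hwv⟩ := hp
  have hw' := hsound _ _ _ _ hw
  have hρ : Cyl (σ ++ v ++ p.1) ⊆ Cyl σ := fun x hx => mem_cyl_append (mem_cyl_append hx)
  have hy := glue_mem (σ ++ v ++ p.1) (fun _ => false)
  have h1 := dc_determined hS hd hρ hw' _ hy
  have hyσv : glue (σ ++ v ++ p.1) (fun _ => false) ∈ Cyl (σ ++ v) := mem_cyl_append hy
  have hagree : ∀ i < stageM σ next n (d + 1),
      glue (σ ++ v ++ p.1) (fun _ => false) i = z i := by
    intro i hi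
    have hlt : i < (σ ++ v).length := lt_of_lt_of_le hi hlen
    have hb : (σ ++ v)[i]? = some (σ ++ v)[i] := List.getElem?_eq_getElem hlt
    rw [hyσv i _ hb, hz i _ hb]
  have h2 := dep_bound hS hd hspec n (hdeg n) (mem_cyl_append hyσv) hagree
  rw [← hwv, h1, ← h2]
  cases S (glue (σ ++ v ++ p.1) (fun _ => false)) n <;> rfl

end Tail

end Vale.Agent.Lib.P327
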