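import Mathlib

/-!
The partial order of Turing degrees of subsets of the naturals, the subsets being coded as
Boolean sequences.
-/

namespace Vale.Agent.Lib.P327

/-- The characteristic function of a subset of the naturals coded as a Boolean sequence,
as a partial function with values 0 and 1. -/
def chi (x : ℕ → Bool) : ℕ →. ℕ := fun i => Part.some (x i).toNat

/-- Turing reducibility of subsets of the naturals coded as Boolean sequences, that is
Mathlib's oracle reducibility of the characteristic functions. -/
def Tle (x y : ℕ → Bool) : Prop := TuringReducible (chi x) (chi y)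

theorem Tle_refl (x : ℕ → Bool) : Tle x x := TuringReducible.refl _

theorem Tle_trans {x y z : ℕ → Bool} (h₁ : Tle x y) (h₂ : Tle y z) : Tle x z :=
  TuringReducible.trans h₁ h₂

/-- Turing equivalence. -/
def tSetoid : Setoid (ℕ → Bool) where
  r x y := Tle x y ∧ Tle y x
  iseqv := ⟨fun x => ⟨Tle_refl x, Tle_refl x⟩, fun h => ⟨h.2, h.1⟩,
    fun h₁ h₂ => ⟨Tle_trans h₁.1 h₂.1, Tle_trans h₂.2 h₁.2⟩⟩

/-- The Turing degrees: classes of subsets of the naturals under Turing equivalence. -/
def TDeg : Type := Quotient tSetoid

/-- The Turing degree of a subset of the naturals. -/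
def deg (x : ℕ → Bool) : TDeg := Quotient.mk tSetoid x

/-- The order of the Turing degrees, induced by Turing reducibility. -/
instance : PartialOrder TDeg where
  le := Quotient.lift₂ Tle (fun _ _ _ _ h₁ h₂ => propext
    ⟨fun h => Tle_trans h₁.2 (Tle_trans h h₂.1), fun h => Tle_trans h₁.1 (Tle_trans h h₂.2)⟩)
  le_refl := by
    intro a
    induction a using Quotient.inductionOn with
    | h x => exact Tle_refl x
  le_trans := by
    intro a b c
    induction a using Quotient.inductionOn with
    | h x =>
      induction b using Quotient.inductionOn with
      | h y =>
        induction c using Quotient.inductionOn with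
        | h z => exact Tle_trans
  le_antisymm := by
    intro a b
    induction a using Quotient.inductionOn with
    | h x =>
      induction b using Quotient.inductionOn with
      | h y => exact fun h₁ h₂ => Quotient.sound ⟨h₁, h₂⟩

theorem deg_le_deg {x y : ℕ → Bool} : deg x ≤ deg y ↔ Tle x y := Iff.rfl

theorem deg_surjective : Function.Surjective deg := fun a => Quotient.exists_rep a

end Vale.Agent.Lib.P327
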