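import Vale.Agent.Lib.P327.Defs

/-!
Boolean functions on Cantor space given by polynomials of bounded degree over the field of two
elements.
-/

namespace Vale.Agent.Lib.P327

/-- A bit as an element of the field with two elements. -/
def bitZ (b : Bool) : ZMod 2 := if b then 1 else 0

/-- The Boolean function `f` on Cantor space is given by a polynomial over the field with two
elements, of total degree at most `d`, in the coordinates of its argument. -/
def PolyDeg (d : ℕ) (f : (ℕ → Bool) → Bool) : Prop :=
  ∃ P : MvPolynomial ℕ (ZMod 2), P.totalDegree ≤ d ∧
    ∀ x : ℕ → Bool, MvPolynomial.eval (fun i => bitZ (x i)) P = bitZ (f x)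

end Vale.Agent.Lib.P327
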