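import Vale.Agent.Lib.P327.Comeager
import Vale.Agent.Lib.P327.PolyDefs

/-!
Degree of functions on Cantor space via iterated discrete derivatives, and its closure properties.
-/

namespace Vale.Agent.Lib.P327

/-- `f` has degree at most `d`: all derivatives of order `d+1` vanish. -/
def DegZ : ℕ → ((ℕ → Bool) → ZMod 2) → Prop
  | 0, f => ∀ x y, f x = f y
  | d + 1, f => ∀ a, DegZ d (fun x => f (bxor x a) + f x)

theorem DegZ.congr {d : ℕ} {f g : (ℕ → Bool) → ZMod 2} (hf : DegZ d f) (h : ∀ x, f x = g x) :
    DegZ d g := (funext h : f = g) ▸ hf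

theorem bxor_comm3 (x a h : ℕ → Bool) : bxor (bxor x a) h = bxor (bxor x h) a := by
  funext i
  simp only [bxor]
  cases x i <;> cases a i <;> cases h i <;> rfl

theorem bxor_self_right (x a : ℕ → Bool) : bxor (bxor x a) a = x := by
  funext i
  simp [bxor]

theorem bxor_bxor_self (z z' : ℕ → Bool) : bxor z (bxor z z') = z' := by
  funext i
  simp only [bxor]
  cases z i <;> cases z' i <;> rfl

theorem two_eq_zero_z (c : ZMod 2) : c + c = 0 := CharTwo.add_self_eq_zero c

theorem DegZ.translate {d : ℕ} {f : (ℕ → Bool) → ZMod 2} (hf : DegZ d f) (h : ℕ → Bool) :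
    DegZ d (fun x => f (bxor x h)) := by
  induction d generalizing f with
  | zero => exact fun x y => hf _ _
  | succ d ih =>
    intro a
    exact (ih (hf a)).congr fun x => by rw [bxor_comm3]

theorem DegZ.add {d : ℕ} {f g : (ℕ → Bool) → ZMod 2} (hf : DegZ d f) (hg : DegZ d g) :
    DegZ d (fun x => f x + g x) := by
  induction d generalizing f g with
  | zero =>
    intro x y
    show f x + g x = f y + g y
    rw [hf x y, hg x y]
  | succ d ih =>
    intro a
    exact (ih (hf a) (hg a)).congr fun x => by ring

theorem DegZ.const (c : ZMod 2) (d : ℕ) : DegZ d (fun _ => c) := by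
  induction d generalizing c with
  | zero => exact fun _ _ => rfl
  | succ d ih =>
    intro _
    exact (ih 0).congr fun _ => (two_eq_zero_z c).symm

theorem DegZ.succ {d : ℕ} {f : (ℕ → Bool) → ZMod 2} (hf : DegZ d f) : DegZ (d + 1) f := by
  induction d generalizing f with
  | zero =>
    intro a x y
    show f (bxor x a) + f x = f (bxor y a) + f y
    rw [hf (bxor x a) (bxor y a), hf x y]
  | succ d ih => exact fun a => ih (hf a)

theorem DegZ.mono {d d' : ℕ} (h : d ≤ d') {f : (ℕ → Bool) → ZMod 2} (hf : DegZ d f) : DegZ d' f := by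
  induction d', h using Nat.le_induction with
  | base => exact hf
  | succ n _ ih => exact ih.succ

theorem DegZ.const_mul (c : ZMod 2) {d : ℕ} {f : (ℕ → Bool) → ZMod 2} (hf : DegZ d f) :
    DegZ d (fun x => c * f x) := by
  induction d generalizing f with
  | zero =>
    intro x y
    show c * f x = c * f y
    rw [hf x y]
  | succ d ih =>
    intro a
    exact (ih (hf a)).congr fun x => by ring

/-- Product rule: degrees add. -/
theorem DegZ.mul (n a b : ℕ) (hab : a + b = n) {f g : (ℕ → Bool) → ZMod 2} (hf : DegZ a f)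
    (hg : DegZ b g) : DegZ (a + b) (fun x => f x * g x) := by
  induction n using Nat.strong_induction_on generalizing a b f g with
  | _ n ih =>
    cases a with
    | zero =>
      rw [Nat.zero_add]
      exact (DegZ.const_mul (f (fun _ => false)) hg).congr fun x => by
        rw [hf x (fun _ => false)]
    | succ a' =>
      cases b with
      | zero =>
        exact (DegZ.const_mul (g (fun _ => false)) hf).congr fun x => by
          rw [hg x (fun _ => false), mul_comm]
      | succ b' =>
        intro h
        have h1 := ih (a' + (b' + 1)) (by omega) a' (b' + 1) rfl (hf h) (hg.translate h)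
        have h2 := ih (a' + 1 + b') (by omega) (a' + 1) b' rfl hf (hg h)
        have e : a' + 1 + b' = a' + (b' + 1) := by omega
        rw [e] at h2
        have h3 := DegZ.add h1 h2
        change DegZ (a' + 1 + b') _
        rw [e]
        refine h3.congr fun x => ?_
        have h4 := two_eq_zero_z (f x * g (bxor x h))
        linear_combination h4

/-- Powers. -/
theorem DegZ.pow {b : ℕ} {f : (ℕ → Bool) → ZMod 2} (hf : DegZ b f) (e : ℕ) :
    DegZ (e * b) (fun x => f x ^ e) := by
  induction e with
  | zero =>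
    simp only [Nat.zero_mul, pow_zero]
    exact DegZ.const 1 0
  | succ e ih =>
    have h := DegZ.mul _ (e * b) b rfl ih hf
    have e2 : (e + 1) * b = e * b + b := by ring
    rw [e2]
    exact h.congr fun x => (pow_succ (f x) e).symm

/-- Products over a finite set. -/
theorem DegZ.prod {b : ℕ} {v : ℕ → (ℕ → Bool) → ZMod 2} (hv : ∀ i, DegZ b (v i)) (e : ℕ → ℕ)
    (s : Finset ℕ) : DegZ ((∑ i ∈ s, e i) * b) (fun x => ∏ i ∈ s, v i x ^ e i) := by
  classical
  induction s using Finset.induction_on with
  | empty =>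
    simp only [Finset.sum_empty, Nat.zero_mul, Finset.prod_empty]
    exact DegZ.const 1 0
  | insert a s ha ih =>
    have h := DegZ.mul _ (e a * b) ((∑ i ∈ s, e i) * b) rfl ((hv a).pow (e a)) ih
    have e2 : (∑ i ∈ insert a s, e i) * b = e a * b + (∑ i ∈ s, e i) * b := by
      rw [Finset.sum_insert ha]
      ring
    rw [e2]
    exact h.congr fun x => by rw [Finset.prod_insert ha]

/-- Finite sums. -/
theorem DegZ.sum {ι : Type} {d : ℕ} {v : ι → (ℕ → Bool) → ZMod 2} (s : Finset ι)
    (hv : ∀ i ∈ s, DegZ d (v i)) : DegZ d (fun x => ∑ i ∈ s, v i x) := by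
  classical
  induction s using Finset.induction_on with
  | empty =>
    simp only [Finset.sum_empty]
    exact DegZ.const 0 d
  | insert a s ha ih =>
    have h := DegZ.add (hv a (Finset.mem_insert_self _ _))
      (ih fun i hi => hv i (Finset.mem_insert_of_mem hi))
    exact h.congr fun x => by rw [Finset.sum_insert ha]

/-- A polynomial evaluated along functions of degree at most `b`. -/
theorem DegZ.eval {b : ℕ} {v : ℕ → (ℕ → Bool) → ZMod 2} (hv : ∀ i, DegZ b (v i))
    (P : MvPolynomial ℕ (ZMod 2)) :
    DegZ (P.totalDegree * b) (fun x => MvPolynomial.eval (fun i => v i x) P) := by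
  simp only [MvPolynomial.eval_eq]
  refine DegZ.sum _ fun m hm => DegZ.const_mul _ ?_
  have h := DegZ.prod hv (fun i => m i) m.support
  refine DegZ.mono ?_ h
  refine Nat.mul_le_mul_right _ ?_
  exact MvPolynomial.le_totalDegree hm

theorem bitZ_xor (a b : Bool) : bitZ (xor a b) = bitZ a + bitZ b := by
  cases a <;> cases b <;> decide

theorem bitZ_inj {a b : Bool} (h : bitZ a = bitZ b) : a = b := by
  revert h
  cases a <;> cases b <;> decide

/-- A coordinate has degree at most one. -/
theorem DegZ.coord (i : ℕ) : DegZ 1 (fun x => bitZ (x i)) := by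
  intro a x y
  show bitZ (bxor x a i) + bitZ (x i) = bitZ (bxor y a i) + bitZ (y i)
  simp only [bxor, bitZ_xor]
  have h1 := two_eq_zero_z (bitZ (x i))
  have h2 := two_eq_zero_z (bitZ (y i))
  linear_combination h1 - h2

/-- Degree of a Boolean function. -/
def DegB (d : ℕ) (f : (ℕ → Bool) → Bool) : Prop := DegZ d (fun x => bitZ (f x))

theorem DegB.deriv {d : ℕ} {f : (ℕ → Bool) → Bool} (hf : DegB (d + 1) f) (a : ℕ → Bool) :
    DegB d (fun x => xor (f (bxor x a)) (f x)) :=
  (hf a).congr fun x => (bitZ_xor _ _).symm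

theorem DegB.const_of_zero {f : (ℕ → Bool) → Bool} (hf : DegB 0 f) (x y : ℕ → Bool) :
    f x = f y :=
  bitZ_inj (hf x y)

theorem DegB.succ {d : ℕ} {f : (ℕ → Bool) → Bool} (hf : DegB d f) : DegB (d + 1) f :=
  DegZ.succ hf

/-- Polynomials of bounded degree have bounded derivative degree. -/
theorem PolyDeg.degB {d : ℕ} {f : (ℕ → Bool) → Bool} (hf : PolyDeg d f) : DegB d f := by
  obtain ⟨P, hP, hev⟩ := hf
  have h := DegZ.eval (b := 1) (v := fun i x => bitZ (x i)) DegZ.coord P
  refine DegZ.mono (by simpa using hP) (h.congr fun x => hev x)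

/-- Composition of a polynomial with a map of bounded degree. -/
theorem PolyDeg.comp_degB {d b : ℕ} {f : (ℕ → Bool) → Bool} (hf : PolyDeg d f)
    {G : (ℕ → Bool) → ℕ → Bool} (hG : ∀ i, DegB b (fun x => G x i)) :
    DegB (d * b) (fun x => f (G x)) := by
  obtain ⟨P, hP, hev⟩ := hf
  have h := DegZ.eval (b := b) (v := fun i x => bitZ (G x i)) hG P
  exact DegZ.mono (Nat.mul_le_mul_right _ hP) (h.congr fun x => hev (G x))

/-- Polynomial functions are continuous. -/
theorem PolyDeg.continuous {d : ℕ} {f : (ℕ → Bool) → Bool} (hf : PolyDeg d f) : Continuous f := by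
  obtain ⟨P, -, hev⟩ := hf
  refine IsLocallyConstant.continuous ?_
  rw [IsLocallyConstant.iff_exists_open]
  intro x
  have hop : IsOpen {z : ℕ → Bool | ∀ i ∈ P.vars, z i = x i} := by
    have e : {z : ℕ → Bool | ∀ i ∈ P.vars, z i = x i} = ⋂ i ∈ P.vars, {z | z i = x i} := by
      ext z; simp
    rw [e]
    refine isOpen_biInter_finset fun i _ => ?_
    have hc : Continuous fun z : ℕ → Bool => z i := continuous_apply i
    exact (isOpen_discrete {x i}).preimage hc
  refine ⟨_, hop, fun _ _ => rfl, fun z hz => bitZ_inj ?_⟩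
  rw [← hev, ← hev]
  exact MvPolynomial.eval₂Hom_congr' rfl (fun i hi _ => by rw [hz i hi]) rfl

/-- Vanishing on disjoint subcubes: a function of degree at most `d` on a cylinder vanishes as
soon as it vanishes on `d+1` subcubes with pairwise disjoint free layers. -/
theorem vanish_layers {σ : List Bool} (d : ℕ) (g : (ℕ → Bool) → Bool) (m : ℕ → ℕ)
    (w : ℕ → ℕ → Bool) (hg : DegB d g) (hm : Monotone m) (hσ : σ.length ≤ m 0)
    (hw : ∀ j, w j ∈ Cyl σ)
    (hv : ∀ j ≤ d, ∀ z ∈ Cyl σ, (∀ i, m j ≤ i → i < m (j + 1) → z i = w j i) → g z = false) :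
    ∀ z ∈ Cyl σ, g z = false := by
  induction d generalizing g m w with
  | zero =>
    intro z _
    rw [hg.const_of_zero z (w 0)]
    exact hv 0 le_rfl _ (hw 0) fun _ _ _ => rfl
  | succ d ih =>
    intro z hz
    classical
    let z' : ℕ → Bool := fun i => if m 0 ≤ i ∧ i < m 1 then w 0 i else z i
    let a : ℕ → Bool := bxor z z'
    have ha : ∀ i, i < m 0 ∨ m 1 ≤ i → a i = false := by
      intro i hi
      have : ¬ (m 0 ≤ i ∧ i < m 1) := by omega
      simp [a, bxor, z', this]
    have hz' : z' ∈ Cyl σ := by
      intro i b hb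
      have hi := lt_of_getElem?_eq_some hb
      have : ¬ (m 0 ≤ i ∧ i < m 1) := by omega
      simp only [z', this, if_false]
      exact hz i b hb
    have hup : ∀ u ∈ Cyl σ, bxor u a ∈ Cyl σ := by
      intro u hu i b hb
      have hi := lt_of_getElem?_eq_some hb
      simp only [bxor, ha i (Or.inl (by omega)), Bool.xor_false]
      exact hu i b hb
    have hd := ih (g := fun x => xor (g (bxor x a)) (g x)) (m := fun j => m (j + 1))
      (w := fun j => w (j + 1)) (hg.deriv a) (fun i j hij => hm (by omega))
      (le_trans hσ (hm (Nat.zero_le _))) (fun j => hw (j + 1))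
      (fun j hj u hu hlayer => by
        have h1 := hv (j + 1) (by omega) u hu hlayer
        have h2 := hv (j + 1) (by omega) (bxor u a) (hup u hu) (fun i hi1 hi2 => by
          have hi3 : m 1 ≤ i := le_trans (hm (by omega)) hi1
          simp only [bxor, ha i (Or.inr hi3), Bool.xor_false]
          exact hlayer i hi1 hi2)
        simp only [h1, h2]
        rfl)
    have h3 := hd z' hz'
    have h4 : bxor z' a = z := by
      funext i
      simp only [a, bxor]
      cases z i <;> cases z' i <;> rfl
    rw [h4] at h3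
    have h5 := hv 0 (by omega) z' hz' (fun i hi1 hi2 => by
      have : m 0 ≤ i ∧ i < m 1 := ⟨hi1, hi2⟩
      simp only [z', this, and_self, if_true])
    rw [h5] at h3
    simpa using h3

end Vale.Agent.Lib.P327
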