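import Vale.Agent.Lib.P327.Search

/-!
Uniform computability of a fixed functional along a computable family of partial oracles,
step-bounded runs for it, and a search reducible to an oracle real.
-/

namespace Vale.Agent.Lib.P327

open Encodable

section Family

variable {β : Type*} [Primcodable β] {O : β → ℕ →. ℕ}

theorem fam_pair_partrec {a b : OC}
    (iha : Partrec fun p : β × ℕ => a.eval (O p.1) p.2)
    (ihb : Partrec fun p : β × ℕ => b.eval (O p.1) p.2) :
    Partrec fun p : β × ℕ => (OC.pair a b).eval (O p.1) p.2 := by
  have h2 : Partrec fun q : (β × ℕ) × ℕ => (b.eval (O q.1.1) q.1.2).map (Nat.pair q.2) :=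
    Partrec.map (f := fun q : (β × ℕ) × ℕ => b.eval (O q.1.1) q.1.2)
      (g := fun q w => Nat.pair q.2 w) (ihb.comp Computable.fst)
      (Primrec₂.natPair.to_comp.comp (Computable.snd.comp Computable.fst) Computable.snd).to₂
  have h := Partrec.bind iha h2.to₂
  refine h.of_eq ?_
  rintro ⟨ρ, n⟩
  apply Part.ext
  intro v
  show v ∈ _ ↔ v ∈ (OC.pair a b).eval (O ρ) n
  rw [mem_eval_pair]
  simp only [Part.mem_bind_iff, Part.mem_map_iff]
  constructor
  · rintro ⟨u, hu, w, hw, rfl⟩
    exact ⟨u, hu, w, hw, rfl⟩
  · rintro ⟨u, hu, w, hw, rfl⟩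
    exact ⟨u, hu, w, hw, rfl⟩

theorem fam_comp_partrec {a b : OC}
    (iha : Partrec fun p : β × ℕ => a.eval (O p.1) p.2)
    (ihb : Partrec fun p : β × ℕ => b.eval (O p.1) p.2) :
    Partrec fun p : β × ℕ => (OC.comp a b).eval (O p.1) p.2 := by
  have h2 : Partrec fun q : (β × ℕ) × ℕ => a.eval (O q.1.1) q.2 :=
    iha.comp (Computable.pair (Computable.fst.comp Computable.fst) Computable.snd)
  have h := Partrec.bind ihb h2.to₂
  refine h.of_eq ?_
  rintro ⟨ρ, n⟩
  apply Part.ext
  intro v
  show v ∈ _ ↔ v ∈ (OC.comp a b).eval (O ρ) n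
  rw [mem_eval_comp]
  simp only [Part.mem_bind_iff]

theorem fam_prec_partrec {a b : OC}
    (iha : Partrec fun p : β × ℕ => a.eval (O p.1) p.2)
    (ihb : Partrec fun p : β × ℕ => b.eval (O p.1) p.2) :
    Partrec fun p : β × ℕ => (OC.prec a b).eval (O p.1) p.2 := by
  have h0 : Partrec fun p : β × ℕ => a.eval (O p.1) (Nat.unpair p.2).1 :=
    iha.comp (Computable.pair Computable.fst
      (Computable.fst.comp (Computable.unpair.comp Computable.snd)))
  have h1 : Partrec fun q : (β × ℕ) × (ℕ × ℕ) =>
      b.eval (O q.1.1) (Nat.pair (Nat.unpair q.1.2).1 (Nat.pair q.2.1 q.2.2)) :=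
    ihb.comp (Computable.pair (Computable.fst.comp Computable.fst)
        (Primrec₂.natPair.to_comp.comp
          (Computable.fst.comp (Computable.unpair.comp (Computable.snd.comp Computable.fst)))
          (Primrec₂.natPair.to_comp.comp (Computable.fst.comp Computable.snd)
            (Computable.snd.comp Computable.snd))))
  have h := Partrec.nat_rec (f := fun p : β × ℕ => (Nat.unpair p.2).2)
      (g := fun p : β × ℕ => a.eval (O p.1) (Nat.unpair p.2).1)
      (h := fun p q => b.eval (O p.1) (Nat.pair (Nat.unpair p.2).1 (Nat.pair q.1 q.2)))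
      (Computable.snd.comp (Computable.unpair.comp Computable.snd)) h0 h1.to₂
  refine h.of_eq ?_
  rintro ⟨ρ, p⟩
  show _ = (OC.prec a b).eval (O ρ) p
  rw [eval_precE]
  simp only
  generalize (Nat.unpair p).2 = m
  induction m with
  | zero => rfl
  | succ m ih =>
    simp only [precF]
    rw [← ih]

theorem fam_rfind_partrec {a : OC}
    (iha : Partrec fun p : β × ℕ => a.eval (O p.1) p.2) :
    Partrec fun p : β × ℕ => (OC.rfind a).eval (O p.1) p.2 := by
  have h : Partrec₂ fun (p : β × ℕ) (n : ℕ) =>
      (fun m : ℕ => decide (m = 0)) <$> a.eval (O p.1) (Nat.pair p.2 n) := by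
    have h1 := Partrec.map (f := fun q : (β × ℕ) × ℕ => a.eval (O q.1.1) (Nat.pair q.1.2 q.2))
      (g := fun _ m => decide (m = 0))
      (iha.comp (Computable.pair (Computable.fst.comp Computable.fst)
        (Primrec₂.natPair.to_comp.comp (Computable.snd.comp Computable.fst) Computable.snd)))
      (Computable₂.mk ((Primrec.eq.comp Primrec.snd (Primrec.const 0)).decide.to_comp))
    exact h1.to₂
  exact (Partrec.rfind h).of_eq (fun _ => rfl)

/-- Uniform computability of a fixed code along a computable family of partial oracles. -/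
theorem eval_family_partrec (hO : Partrec fun p : β × ℕ => O p.1 p.2) (c : OC) :
    Partrec fun p : β × ℕ => c.eval (O p.1) p.2 := by
  induction c with
  | zero =>
    exact (Computable.const (α := β × ℕ) (0 : ℕ)).partrec.of_eq fun _ => rfl
  | succ =>
    exact (Computable.partrec (f := fun p : β × ℕ => p.2.succ)
      (Computable.succ.comp Computable.snd)).of_eq fun _ => rfl
  | left =>
    exact (Computable.partrec (f := fun p : β × ℕ => (Nat.unpair p.2).1)
      (Computable.fst.comp (Computable.unpair.comp Computable.snd))).of_eq fun _ => rfl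
  | right =>
    exact (Computable.partrec (f := fun p : β × ℕ => (Nat.unpair p.2).2)
      (Computable.snd.comp (Computable.unpair.comp Computable.snd))).of_eq fun _ => rfl
  | oracle => exact hO
  | pair a b iha ihb => exact fam_pair_partrec iha ihb
  | comp a b iha ihb => exact fam_comp_partrec iha ihb
  | prec a b iha ihb => exact fam_prec_partrec iha ihb
  | rfind a iha => exact fam_rfind_partrec iha

/-- Step-bounded run of a functional along a computable family of partial oracles. -/
theorem exists_run_family (hO : Partrec fun p : β × ℕ => O p.1 p.2) (c : OC) :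
    ∃ run : ℕ × β × ℕ → Option ℕ, Primrec run ∧
      (∀ k b n v, run (k, b, n) = some v → v ∈ c.eval (O b) n) ∧
      (∀ b n v, v ∈ c.eval (O b) n → ∃ k0, ∀ k, k0 ≤ k → run (k, b, n) = some v) := by
  have h := eval_family_partrec hO c
  obtain ⟨C, hC⟩ := Nat.Partrec.Code.exists_code.1 h
  refine ⟨fun p => Nat.Partrec.Code.evaln p.1 C (encode (p.2.1, p.2.2)), ?_, ?_, ?_⟩
  · exact Nat.Partrec.Code.primrec_evaln.comp (Primrec.pair (Primrec.pair Primrec.fst
      (Primrec.const C)) (Primrec.encode.comp Primrec.snd))
  · intro k b n v hv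
    have h1 := Nat.Partrec.Code.evaln_sound (k := k) (c := C) (n := encode (b, n)) (x := v) hv
    rw [hC] at h1
    simpa using h1
  · intro b n v hv
    have h1 : v ∈ Nat.Partrec.Code.eval C (encode (b, n)) := by
      rw [hC]
      simpa using hv
    obtain ⟨k0, hk0⟩ := Nat.Partrec.Code.evaln_complete.1 h1
    exact ⟨k0, fun k hk => Nat.Partrec.Code.evaln_mono hk hk0⟩

end Family

/-- Prefixes of a real are uniformly computable from it. -/
theorem pref_recursiveIn (A : ℕ → Bool) :
    Nat.RecursiveIn {chi A} (fun m => Part.some (encode (pref A m))) := by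
  let O : Set (ℕ →. ℕ) := {chi A}
  have rec_of_comp : ∀ {f : ℕ → ℕ}, Computable f → Nat.RecursiveIn O (fun n => Part.some (f n)) :=
    fun hf => Nat.Partrec.recursiveIn (Partrec.nat_iff.1 hf.partrec)
  -- the step function
  let cat : ℕ → ℕ := fun w =>
    encode (((decode (α := List Bool) w.unpair.1).getD []) ++ [Nat.bodd w.unpair.2])
  have hcat : Computable cat := by
    refine (Primrec.encode.comp (Primrec.list_append.comp
      (Primrec.option_getD.comp (Primrec.decode.comp (Primrec.fst.comp Primrec.unpair))
        (Primrec.const [])) (Primrec.list_cons.comp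
          (Primrec.nat_bodd.comp (Primrec.snd.comp Primrec.unpair)) (Primrec.const [])))).to_comp
  have h1 : Nat.RecursiveIn O (fun q => chi A q.unpair.2.unpair.1) := by
    have := Nat.RecursiveIn.comp (Nat.RecursiveIn.oracle (chi A) (Set.mem_singleton _))
      (rec_of_comp (f := fun q => q.unpair.2.unpair.1)
        (Computable.fst.comp (Computable.unpair.comp (Computable.snd.comp Computable.unpair))))
    refine this.of_eq fun q => ?_
    exact Part.bind_some _ _
  have h2 : Nat.RecursiveIn O (fun q => Part.some q.unpair.2.unpair.2) :=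
    rec_of_comp (Computable.snd.comp (Computable.unpair.comp (Computable.snd.comp Computable.unpair)))
  have h3 : Nat.RecursiveIn O (fun q => Part.some
      (encode (((decode (α := List Bool) q.unpair.2.unpair.2).getD []) ++ [A q.unpair.2.unpair.1]))) := by
    have := Nat.RecursiveIn.comp (rec_of_comp hcat) (Nat.RecursiveIn.pair h2 h1)
    refine this.of_eq fun q => ?_
    apply Part.ext
    intro v
    simp [chi, cat, seq_eq_bind_map, Part.mem_some_iff]
    cases A q.unpair.2.unpair.1 <;> simp
  have hz : Nat.RecursiveIn O (fun _ => 0) := Nat.RecursiveIn.zero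
  have hP := Nat.RecursiveIn.prec hz h3
  have hval : ∀ (k : ℕ), (Nat.rec (motive := fun _ => Part ℕ) (0 : Part ℕ)
      (fun y IH => IH.bind fun i => Part.some
        (encode (((decode (α := List Bool) i).getD []) ++ [A y]))) k)
      = Part.some (encode (pref A k)) := by
    intro k
    induction k with
    | zero => rfl
    | succ k ih =>
      simp only
      rw [ih]
      simp [pref, List.range_succ]
  have hfinal := Nat.RecursiveIn.comp hP (rec_of_comp (f := fun m => Nat.pair 0 m)
    (Primrec₂.natPair.to_comp.comp (Computable.const 0) Computable.id))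
  refine hfinal.of_eq fun m => ?_
  simp only [Part.bind_eq_bind, Part.bind_some, Nat.unpair_pair]
  exact hval m

/-- A real found by a search through primitive recursive tests on prefixes of `A` is reducible
to `A`. -/
theorem Tle_of_search {A y : ℕ → Bool} {test : List Bool × ℕ × ℕ → Option ℕ} (ht : Primrec test)
    (hex : ∀ n, ∃ m w v, test (pref A m, n, w) = some v)
    (hsound : ∀ n m w v, test (pref A m, n, w) = some v → v = (y n).toNat) : Tle y A := by
  let O : Set (ℕ →. ℕ) := {chi A}
  have rec_of_comp : ∀ {f : ℕ → ℕ}, Computable f → Nat.RecursiveIn O (fun n => Part.some (f n)) :=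
    fun hf => Nat.Partrec.recursiveIn (Partrec.nat_iff.1 hf.partrec)
  -- values of the test with the prefix given by its code
  let val : ℕ → ℕ := fun q => encode (test ((decode (α := List Bool) q.unpair.1).getD [],
    q.unpair.2.unpair.1, q.unpair.2.unpair.2))
  have hval : Computable val := by
    refine (Primrec.encode.comp (ht.comp (Primrec.pair
      (Primrec.option_getD.comp (Primrec.decode.comp (Primrec.fst.comp Primrec.unpair))
        (Primrec.const []))
      (Primrec.pair (Primrec.fst.comp (Primrec.unpair.comp (Primrec.snd.comp Primrec.unpair)))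
        (Primrec.snd.comp (Primrec.unpair.comp (Primrec.snd.comp Primrec.unpair))))))).to_comp
  -- Q (pair n (pair m w)) is the encoded test on the prefix of length m
  let Q : ℕ → ℕ := fun p => val (Nat.pair (encode (pref A p.unpair.2.unpair.1))
    (Nat.pair p.unpair.1 p.unpair.2.unpair.2))
  have hQ : Nat.RecursiveIn O (fun p => Part.some (Q p)) := by
    have h1 : Nat.RecursiveIn O (fun p => Part.some (encode (pref A p.unpair.2.unpair.1))) := by
      have := Nat.RecursiveIn.comp (pref_recursiveIn A) (rec_of_comp (f := fun p => p.unpair.2.unpair.1)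
        (Computable.fst.comp (Computable.unpair.comp (Computable.snd.comp Computable.unpair))))
      refine this.of_eq fun q => ?_
      exact Part.bind_some _ _
    have h2 : Nat.RecursiveIn O (fun p => Part.some (Nat.pair p.unpair.1 p.unpair.2.unpair.2)) :=
      rec_of_comp (Primrec₂.natPair.to_comp.comp (Computable.fst.comp Computable.unpair)
        (Computable.snd.comp (Computable.unpair.comp (Computable.snd.comp Computable.unpair))))
    have := Nat.RecursiveIn.comp (rec_of_comp hval) (Nat.RecursiveIn.pair h1 h2)
    refine this.of_eq fun q => ?_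
    apply Part.ext
    intro v
    simp [Q, seq_eq_bind_map, Part.mem_some_iff]
  -- the search: least p with nonzero Q
  let T : ℕ → ℕ := fun w => bif (w == 0) then 1 else 0
  have hT : Computable T := by
    refine (Primrec.cond (Primrec.beq.comp Primrec.id (Primrec.const 0)) (Primrec.const 1)
      (Primrec.const 0)).to_comp
  have hTQ : Nat.RecursiveIn O (fun p => Part.some (T (Q p))) := by
    have := Nat.RecursiveIn.comp (rec_of_comp hT) hQ
    refine this.of_eq fun q => ?_
    exact Part.bind_some _ _
  have hR := Nat.RecursiveIn.rfind hTQ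
  have hdom : ∀ n, ∃ w, Q (Nat.pair n w) ≠ 0 := by
    intro n
    obtain ⟨m, w, v, hv⟩ := hex n
    refine ⟨Nat.pair m w, ?_⟩
    simp only [Q, val, Nat.unpair_pair, Encodable.encodek, Option.getD_some, hv]
    simp
  have hsound' : ∀ n w, Q (Nat.pair n w) ≠ 0 → Q (Nat.pair n w) = (y n).toNat + 1 := by
    intro n w hw
    simp only [Q, val, Nat.unpair_pair, Encodable.encodek, Option.getD_some] at hw ⊢
    cases h : test (pref A w.unpair.1, n, w.unpair.2) with
    | none => rw [h] at hw; simp at hw
    | some v =>
      rw [hsound _ _ _ _ h]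
      simp
  have hout : Nat.RecursiveIn O (fun n => Part.some (y n).toNat) := by
    have hid : Nat.RecursiveIn O (fun n => Part.some n) :=
      rec_of_comp (f := fun n => n) Computable.id
    have hp := Nat.RecursiveIn.pair hid hR
    have hq := Nat.RecursiveIn.comp hQ hp
    have hpr := Nat.RecursiveIn.comp (rec_of_comp (f := Nat.pred) Computable.pred) hq
    refine hpr.of_eq fun n => ?_
    classical
    have hw₀ := Nat.find_spec (hdom n)
    have hmin : ∀ m, m < Nat.find (hdom n) → Q (Nat.pair n m) = 0 := fun m hm => by
      have := Nat.find_min (hdom n) hm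
      simpa using this
    let pp : ℕ →. Bool := fun m => (fun k : ℕ => decide (k = 0)) <$>
        (Part.some (T (Q (Nat.pair n m))) : Part ℕ)
    have hfind : Nat.find (hdom n) ∈ Nat.rfind pp := by
      refine Nat.mem_rfind.2 ⟨?_, fun {m} hm => ?_⟩
      · have hT0 : T (Q (Nat.pair n (Nat.find (hdom n)))) = 0 := by
          cases hq : Q (Nat.pair n (Nat.find (hdom n))) with
          | zero => exact absurd hq hw₀
          | succ q => rfl
        simp [pp, hT0]
      · have hT1 : T (Q (Nat.pair n m)) = 1 := by
          rw [hmin m hm]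
          rfl
        simp [pp, hT1]
    have hR' : Nat.rfind pp = Part.some (Nat.find (hdom n)) := Part.eq_some_iff.2 hfind
    show (Nat.pair <$> Part.some n <*> Nat.rfind pp >>= fun p => Part.some (Q p)) >>=
          (fun w => Part.some (Nat.pred w)) = Part.some (y n).toNat
    rw [hR']
    simp [seq_eq_bind_map, hsound' n _ hw₀]
  exact RecursiveIn.iff_nat.2 hout

end Vale.Agent.Lib.P327
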