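import Vale.Agent.Lib.P327.Cylinder

/-!
A continuous map of bounded degree that is pointwise reducible to its argument has a uniform
computable representation on the whole of Cantor space.
-/

namespace Vale.Agent.Lib.P327

open Encodable

/-- Uniform computable representation of a map on Cantor space. -/
def Rep (S : (ℕ → Bool) → ℕ → Bool) : Prop :=
  ∃ (B : ℕ → ℕ) (Tab : ℕ × List Bool → Bool), Computable B ∧ Computable Tab ∧
    ∀ x n m, B n ≤ m → S x n = Tab (n, pref x m)

/-- A real reducible to a computable one is computable. -/
theorem computable_of_Tle {y z : ℕ → Bool} (hz : Computable z) (h : Tle y z) : Computable y := by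
  have h1 : Nat.Partrec (chi z) := by
    have h2 : Computable (fun n : ℕ => (z n).toNat) :=
      (Primrec.dom_bool Bool.toNat).to_comp.comp hz
    exact Partrec.nat_iff.1 h2.partrec
  have h3 : Nat.Partrec (chi y) :=
    Nat.RecursiveIn.partrec_of_oracle (fun g hg => by rw [Set.mem_singleton_iff.1 hg]; exact h1)
      (RecursiveIn.iff_nat.1 h)
  have h4 : Computable (fun n : ℕ => (y n).toNat) := Partrec.nat_iff.2 h3
  refine (Computable.nat_bodd.comp h4).of_eq fun n => ?_
  cases y n <;> rfl

/-- A computable real is reducible to every real. -/
theorem Tle_of_computable {y : ℕ → Bool} (h : Computable y) (z : ℕ → Bool) : Tle y z := by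
  have h2 : Computable (fun n : ℕ => (y n).toNat) :=
    (Primrec.dom_bool Bool.toNat).to_comp.comp h
  exact RecursiveIn.iff_nat.2 (Nat.Partrec.recursiveIn (Partrec.nat_iff.1 h2.partrec))

/-- A finite family of representations is uniformly computable. -/
theorem rep_family (l : List (List Bool)) (T : List Bool → (ℕ → Bool) → ℕ → Bool)
    (h : ∀ a ∈ l, Rep (T a)) :
    ∃ (BF : ℕ → ℕ) (TabF : (List Bool × ℕ) × List Bool → Bool), Computable BF ∧ Computable TabF ∧
      ∀ a ∈ l, ∀ x n m, BF n ≤ m → T a x n = TabF ((a, n), pref x m) := by
  induction l with
  | nil =>
    exact ⟨fun _ => 0, fun _ => false, Computable.const 0, Computable.const false,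
      fun a ha => absurd ha (by simp)⟩
  | cons a₀ l ih =>
    obtain ⟨BF, TabF, hBF, hTabF, hF⟩ := ih fun a ha => h a (List.mem_cons_of_mem _ ha)
    obtain ⟨B₀, Tab₀, hB₀, hTab₀, hs₀⟩ := h a₀ List.mem_cons_self
    refine ⟨fun n => max (B₀ n) (BF n), fun q => bif decide (q.1.1 = a₀) then Tab₀ (q.1.2, q.2)
      else TabF q, ?_, ?_, fun a ha x n m hm => ?_⟩
    · exact Primrec.nat_max.to_comp.comp hB₀ hBF
    · refine Computable.cond ?_ (hTab₀.comp (Computable.pair
        (Computable.snd.comp Computable.fst) Computable.snd)) hTabF
      exact (Primrec.eq.comp (Primrec.fst.comp Primrec.fst) (Primrec.const a₀)).decide.to_comp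
    · rw [List.mem_cons] at ha
      rcases ha with rfl | ha
      · simp only [decide_true, cond_true]
        exact hs₀ x n m (le_trans (le_max_left _ _) hm)
      · by_cases he : a = a₀
        · subst he
          simp only [decide_true, cond_true]
          exact hs₀ x n m (le_trans (le_max_left _ _) hm)
        · simp only [he, decide_false, cond_false]
          exact hF a ha x n m (le_trans (le_max_right _ _) hm)

theorem pref_eq_of_cyl {ρ : List Bool} {z : ℕ → Bool} (hz : z ∈ Cyl ρ) {m : ℕ}
    (hm : ρ.length = m) : pref z m = ρ := by
  have h := pref_eq_append hz (le_of_eq hm)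
  have h2 : (pref z m).drop ρ.length = [] := by
    apply List.eq_nil_of_length_eq_zero
    simp [length_pref, hm]
  rw [h2, List.append_nil] at h
  exact h

theorem glue_computable (a : List Bool) : Computable (glue a fun _ => false) := by
  have h : Primrec (fun i : ℕ => (a[i]?).getD false) :=
    Primrec.option_getD.comp (Primrec.list_getElem?.comp (Primrec.const a) Primrec.id)
      (Primrec.const false)
  exact h.to_comp.of_eq fun i => rfl

theorem bxor_continuous_left (a : ℕ → Bool) : Continuous fun z : ℕ → Bool => bxor z a := by
  refine continuous_pi fun n => ?_
  have : Continuous fun G : ℕ → Bool => G n := continuous_apply n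
  exact (continuous_of_discreteTopology (f := fun b : Bool => xor b (a n))).comp this

theorem xor_continuous {f g : (ℕ → Bool) → Bool} (hf : Continuous f) (hg : Continuous g) :
    Continuous fun x => xor (f x) (g x) :=
  (continuous_of_discreteTopology (f := fun p : Bool × Bool => xor p.1 p.2)).comp (hf.prodMk hg)

/-- Main induction on the degree. -/
theorem rep_of_deg (d : ℕ) (S : (ℕ → Bool) → ℕ → Bool) (hS : Continuous S)
    (hdeg : ∀ n, DegB d fun x => S x n) (hT : ∀ x, Tle (S x) x) : Rep S := by
  induction d generalizing S with
  | zero =>
    have hc : Computable (S fun _ => false) :=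
      computable_of_Tle (z := fun _ => false) (Computable.const false) (hT _)
    refine ⟨fun _ => 0, fun q => S (fun _ => false) q.1, Computable.const 0,
      hc.comp Computable.fst, fun x n m _ => ?_⟩
    exact (hdeg n).const_of_zero _ _
  | succ d ih =>
    obtain ⟨c, σ, hd⟩ := exists_denseCorrect hT
    let T : List Bool → (ℕ → Bool) → ℕ → Bool := fun a z n =>
      xor (S (bxor z (glue a fun _ => false)) n) (S z n)
    have hTrep : ∀ a, Rep (T a) := by
      intro a
      refine ih (T a) ?_ (fun n => (hdeg n).deriv _) ?_
      · refine continuous_pi fun n => ?_
        have h1 : Continuous fun z => S z n := (continuous_apply n).comp hS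
        exact xor_continuous (h1.comp (bxor_continuous_left _)) h1
      · intro z
        have h1 : Tle (bxor z (glue a fun _ => false)) z :=
          bxor_le (Tle_refl z) (Tle_of_computable (glue_computable a) z)
        exact bxor_le (Tle_trans (hT _) h1) (hT z)
    obtain ⟨BF, TabF, hBF, hTabF, hF⟩ := rep_family (strs σ.length) T (fun a _ => hTrep a)
    obtain ⟨Bc, val, hBc, hval, hv⟩ := exists_cyl hS hd hdeg
    let au : List Bool → List Bool := fun u =>
      (List.range σ.length).map fun i => xor (u.getD i false) (σ.getD i false)
    have hau : Primrec au := by
      refine Primrec.list_map (Primrec.const _) ?_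
      refine Primrec₂.mk ((Primrec.dom_bool₂ xor).comp ?_ ?_)
      · exact (Primrec.list_getD false).comp Primrec.fst Primrec.snd
      · exact (Primrec.list_getD false).comp (Primrec.const σ) Primrec.snd
    let Tab : ℕ × List Bool → Bool := fun q =>
      xor (val (q.1, q.2.drop σ.length)) (TabF ((au q.2, q.1), σ ++ q.2.drop σ.length))
    have hdrop : Primrec (fun q : ℕ × List Bool => q.2.drop σ.length) :=
      Primrec.list_drop.comp (Primrec.const _) Primrec.snd
    have hTab : Computable Tab := by
      refine (Primrec.dom_bool₂ xor).to_comp.comp ?_ ?_
      · exact hval.comp (Computable.pair Computable.fst hdrop.to_comp)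
      · refine hTabF.comp (Computable.pair (Computable.pair
          (hau.to_comp.comp Computable.snd) Computable.fst) ?_)
        exact (Primrec.list_append.comp (Primrec.const σ) hdrop).to_comp
    refine ⟨fun n => max σ.length (max (Bc n) (BF n)), Tab, ?_, hTab, fun x n m hm => ?_⟩
    · exact Primrec.nat_max.to_comp.comp (Computable.const _)
        (Primrec.nat_max.to_comp.comp hBc hBF)
    · have hLm : σ.length ≤ m := le_trans (le_max_left _ _) hm
      have hBcm : Bc n ≤ m := le_trans (le_trans (le_max_left _ _) (le_max_right _ _)) hm
      have hBFm : BF n ≤ m := le_trans (le_trans (le_max_right _ _) (le_max_right _ _)) hm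
      set u := pref x m with hu
      set a := au u with ha
      have halen : a.length = σ.length := by simp [ha, au]
      have habar : ∀ i, glue a (fun _ => false) i =
          if i < σ.length then xor (x i) (σ.getD i false) else false := by
        intro i
        by_cases hi : i < σ.length
        · have h1 : a[i]? = some (xor (x i) (σ.getD i false)) := by
            simp only [ha, au]
            rw [List.getElem?_map, List.getElem?_range hi]
            simp only [Option.map_some]
            congr 2
            rw [List.getD_eq_getElem?_getD, hu, getElem?_pref x (lt_of_lt_of_le hi hLm)]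
            rfl
          simp [glue, h1, hi]
        · have h1 : a[i]? = none := List.getElem?_eq_none (by omega)
          simp [glue, h1, hi]
      set x' := bxor x (glue a fun _ => false) with hx'
      have hx'v : x' ∈ Cyl (σ ++ u.drop σ.length) := by
        intro j b hb
        by_cases hj : j < σ.length
        · rw [List.getElem?_append_left hj] at hb
          have h1 : σ.getD j false = b := by
            rw [List.getD_eq_getElem?_getD, hb]
            rfl
          simp only [hx', bxor, habar, hj, if_true, h1]
          simp
        · rw [List.getElem?_append_right (by omega), List.getElem?_drop] at hb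
          have e : σ.length + (j - σ.length) = j := by omega
          rw [e] at hb
          have hjm : j < m := by
            have := lt_of_getElem?_eq_some hb
            rwa [hu, length_pref] at this
          rw [hu, getElem?_pref x hjm] at hb
          have h1 := Option.some.inj hb
          simp only [hx', bxor, habar, hj, if_false, Bool.xor_false]
          exact h1
      have hvlen : (σ ++ u.drop σ.length).length = m := by
        simp only [List.length_append, List.length_drop, hu, length_pref]
        omega
      have h1 := hv n (u.drop σ.length) x' hx'v (by rw [hvlen]; exact hBcm)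
      have hapref : a ∈ strs σ.length := mem_strs _ _ halen
      have h2 := hF a hapref x' n m hBFm
      rw [pref_eq_of_cyl hx'v hvlen] at h2
      have h3 : T a x' n = xor (S x n) (S x' n) := by
        simp only [T, hx', bxor_self_right]
      show S x n = xor (val (n, u.drop σ.length)) (TabF ((au u, n), σ ++ u.drop σ.length))
      rw [h1, ← ha, ← h2, h3]
      cases S x n <;> cases S x' n <;> rfl

end Vale.Agent.Lib.P327
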