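import Vale.Agent.Lib.P327.Global
import Vale.Agent.Lib.P327.Core

/-!
From a uniform representation of the conjugated shift to the reducibility of the map itself, and
the rigidity theorem for polynomial bijections of bounded degree.
-/

namespace Vale.Agent.Lib.P327

open Encodable

/-- Any function on strings of a fixed length agrees with a computable function. -/
theorem table_computable (M : ℕ) (g : List Bool → Bool) :
    ∃ Φ : List Bool → Bool, Computable Φ ∧ ∀ u : List Bool, u.length = M → Φ u = g u := by
  induction M generalizing g with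
  | zero =>
    refine ⟨fun _ => g [], Computable.const _, fun u hu => ?_⟩
    rw [List.length_eq_zero_iff.1 hu]
  | succ M ih =>
    obtain ⟨Φt, hΦt, hst⟩ := ih fun u => g (true :: u)
    obtain ⟨Φf, hΦf, hsf⟩ := ih fun u => g (false :: u)
    refine ⟨fun u => bif u.headI then Φt u.tail else Φf u.tail, ?_, fun u hu => ?_⟩
    · exact Computable.cond Primrec.list_headI.to_comp (hΦt.comp Primrec.list_tail.to_comp)
        (hΦf.comp Primrec.list_tail.to_comp)
    · cases u with
      | nil => simp at hu
      | cons b u' =>
        have hu' : u'.length = M := by simpa using hu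
        cases b
        · simpa using hsf u' hu'
        · simpa using hst u' hu'

/-- A truth-table style reduction with computable use gives a reduction. -/
theorem Tle_of_tt {x y : ℕ → Bool} {B : ℕ → ℕ} {Tt : ℕ × List Bool → Bool} (hB : Computable B)
    (hTt : Computable Tt) (h : ∀ n, y n = Tt (n, pref x (B n))) : Tle y x := by
  let O : Set (ℕ →. ℕ) := {chi x}
  have rec_of_comp : ∀ {f : ℕ → ℕ}, Computable f → Nat.RecursiveIn O (fun n => Part.some (f n)) :=
    fun hf => Nat.Partrec.recursiveIn (Partrec.nat_iff.1 hf.partrec)
  have h1 : Nat.RecursiveIn O (fun n => Part.some (encode (pref x (B n)))) :=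
    (Nat.RecursiveIn.comp (pref_recursiveIn x) (rec_of_comp hB)).of_eq fun n => Part.bind_some _ _
  let w : ℕ → ℕ := fun q => (Tt (q.unpair.1, (decode (α := List Bool) q.unpair.2).getD [])).toNat
  have hw : Computable w := by
    refine (Primrec.dom_bool Bool.toNat).to_comp.comp (hTt.comp (Computable.pair
      (Computable.fst.comp Computable.unpair) ?_))
    exact (Primrec.option_getD.comp (Primrec.decode.comp (Primrec.snd.comp Primrec.unpair))
      (Primrec.const [])).to_comp
  have h2 := Nat.RecursiveIn.comp (rec_of_comp hw)
    (Nat.RecursiveIn.pair (rec_of_comp (f := fun n => n) Computable.id) h1)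
  refine RecursiveIn.iff_nat.2 (h2.of_eq fun n => ?_)
  apply Part.ext
  intro v
  simp only [chi, seq_eq_bind_map, w, h n, Part.bind_eq_bind, Part.map_eq_map, Part.map_some,
    Part.bind_some, Nat.unpair_pair, encodek, Option.getD_some]

/-- A continuous Boolean function on Cantor space has a uniform modulus. -/
theorem uniform_mod {φ : (ℕ → Bool) → Bool} (hφ : Continuous φ) :
    ∃ M, ∀ x z : ℕ → Bool, (∀ i < M, z i = x i) → φ z = φ x := by
  choose k hk using cont_local hφ
  obtain ⟨t, ht⟩ := isCompact_univ.elim_finite_subcover
    (fun x : ℕ → Bool => {z : ℕ → Bool | ∀ i < k x, z i = x i}) (fun x => agree_isOpen x (k x))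
    (fun x _ => Set.mem_iUnion.2 ⟨x, fun _ _ => rfl⟩)
  refine ⟨t.sup k, fun x z hz => ?_⟩
  obtain ⟨x₀, hx₀, hxx⟩ := Set.mem_iUnion₂.1 (ht (Set.mem_univ x))
  have hle : k x₀ ≤ t.sup k := Finset.le_sup hx₀
  have h1 := hk x₀ x hxx
  have h2 := hk x₀ z fun i hi => by
    rw [hz i (lt_of_lt_of_le hi hle)]
    exact hxx i hi
  rw [h1, h2]

/-- Iterating a uniformly represented map: observables of its orbit are reducible to the start. -/
theorem Tle_iter {S : (ℕ → Bool) → ℕ → Bool} (hrep : Rep S) {φ : (ℕ → Bool) → Bool}
    (hφ : Continuous φ) {y : (ℕ → Bool) → ℕ → Bool} (hy : ∀ x n, y x n = φ (S^[n] x))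
    (x : ℕ → Bool) : Tle (y x) x := by
  obtain ⟨B, Tab, hB, hTab, hrs⟩ := hrep
  obtain ⟨M, hM⟩ := uniform_mod hφ
  let maxB : ℕ → ℕ := fun l => Nat.rec (motive := fun _ => ℕ) 0 (fun i acc => max acc (B i)) l
  have hmaxB : Computable maxB := by
    have hh : Computable₂ (fun (_ : ℕ) (q : ℕ × ℕ) => max q.2 (B q.1)) :=
      Computable₂.mk (Primrec.nat_max.to_comp.comp (Computable.snd.comp Computable.snd)
        (hB.comp (Computable.fst.comp Computable.snd)))
    exact Computable.nat_rec Computable.id (Computable.const 0) hh
  have hmaxle : ∀ l i, i < l → B i ≤ maxB l := by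
    intro l
    induction l with
    | zero => intro i hi; omega
    | succ l ih =>
      intro i hi
      show B i ≤ max (maxB l) (B l)
      by_cases h : i < l
      · exact le_trans (ih i h) (le_max_left _ _)
      · have : i = l := by omega
        rw [this]
        exact le_max_right _ _
  let need : ℕ → ℕ := fun k => Nat.rec (motive := fun _ => ℕ) M (fun _ l => maxB l) k
  have hneed : Computable need := by
    have hh : Computable₂ (fun (_ : ℕ) (q : ℕ × ℕ) => maxB q.2) :=
      Computable₂.mk (hmaxB.comp (Computable.snd.comp Computable.snd))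
    exact Computable.nat_rec Computable.id (Computable.const M) hh
  let mapR : ℕ × List Bool → List Bool := fun q =>
    Nat.rec (motive := fun _ => List Bool) [] (fun i acc => acc ++ [Tab (i, q.2)]) q.1
  have hmapR : Computable mapR := by
    have hh : Computable₂ (fun (q : ℕ × List Bool) (s : ℕ × List Bool) => s.2 ++ [Tab (s.1, q.2)]) :=
      Computable₂.mk (Computable.list_concat.comp (Computable.snd.comp Computable.snd)
        (hTab.comp (Computable.pair (Computable.fst.comp Computable.snd)
          (Computable.snd.comp Computable.fst))))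
    exact Computable.nat_rec Computable.fst (Computable.const []) hh
  have hmapS : ∀ (z : ℕ → Bool) (k m : ℕ), (∀ i < k, B i ≤ m) →
      mapR (k, pref z m) = pref (S z) k := by
    intro z k m
    induction k with
    | zero => intro _; rfl
    | succ k ih =>
      intro h
      show mapR (k, pref z m) ++ [Tab (k, pref z m)] = _
      rw [ih fun i hi => h i (by omega), ← hrs z k m (h k (by omega))]
      simp [pref, List.range_succ]
  let st : ℕ × List Bool → ℕ × List Bool := fun s => (s.1.pred, mapR (need s.1.pred, s.2))
  have hst : Computable st :=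
    Computable.pair (Computable.pred.comp Computable.fst)
      (hmapR.comp (Computable.pair (hneed.comp (Computable.pred.comp Computable.fst))
        Computable.snd))
  have hev : ∀ (n : ℕ) (z : ℕ → Bool), (st^[n] (n, pref z (need n))).2 = pref (S^[n] z) M := by
    intro n
    induction n with
    | zero => intro z; rfl
    | succ n ih =>
      intro z
      rw [Function.iterate_succ_apply, Function.iterate_succ_apply]
      have e : st (n + 1, pref z (need (n + 1))) = (n, pref (S z) (need n)) := by
        show (n, mapR (need n, pref z (maxB (need n)))) = _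
        rw [hmapS z (need n) (maxB (need n)) (fun i hi => hmaxle _ i hi)]
      rw [e, ih]
  let Ev : ℕ × List Bool → List Bool := fun q =>
    (Nat.rec (motive := fun _ => ℕ × List Bool) (q.1, q.2) (fun _ s => st s) q.1).2
  have hEv : Computable Ev := by
    have hh : Computable₂ (fun (_ : ℕ × List Bool) (s : ℕ × (ℕ × List Bool)) => st s.2) :=
      Computable₂.mk (hst.comp (Computable.snd.comp Computable.snd))
    exact Computable.snd.comp (Computable.nat_rec Computable.fst Computable.id hh)
  have hEv2 : ∀ (n : ℕ) (u : List Bool), Ev (n, u) = (st^[n] (n, u)).2 := by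
    intro n u
    show (Nat.rec (motive := fun _ => ℕ × List Bool) (n, u) (fun _ s => st s) n).2 = _
    congr 1
    generalize (n, u) = s₀
    induction n with
    | zero => rfl
    | succ n ih =>
      rw [Function.iterate_succ_apply']
      show st (Nat.rec (motive := fun _ => ℕ × List Bool) s₀ (fun _ s => st s) n) = _
      rw [ih]
  obtain ⟨Φ, hΦ, hΦs⟩ := table_computable M fun u => φ (glue u fun _ => false)
  refine Tle_of_tt (B := need) (Tt := fun q => Φ (Ev q)) hneed (hΦ.comp hEv) fun n => ?_
  show y x n = Φ (Ev (n, pref x (need n)))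
  rw [hEv2, hev, hΦs _ (length_pref _ _), hy]
  have hagree : ∀ i < M, glue (pref (S^[n] x) M) (fun _ => false) i = S^[n] x i := by
    intro i hi
    simp [glue, getElem?_pref _ hi]
  exact (hM _ _ hagree).symm

/-- The reduction in one direction, given that the conjugated shift is pointwise reducible. -/
theorem core_poly (F : (ℕ → Bool) ≃ (ℕ → Bool)) (d : ℕ)
    (hF : ∀ n, PolyDeg d fun x => F x n) (hF' : ∀ n, PolyDeg d fun x => F.symm x n)
    (hT : ∀ x, Tle (F.symm (sh (F x))) x) (x : ℕ → Bool) : Tle (F x) x := by
  let S : (ℕ → Bool) → ℕ → Bool := fun x => F.symm (sh (F x))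
  have hFc : Continuous F := continuous_pi fun n => (hF n).continuous
  have hFc' : Continuous F.symm := continuous_pi fun n => (hF' n).continuous
  have hsh : Continuous sh := continuous_pi fun n => continuous_apply (n + 1)
  have hS : Continuous S := hFc'.comp (hsh.comp hFc)
  have hdeg : ∀ n, DegB (d * d) fun x => S x n := fun n =>
    (hF' n).comp_degB (G := fun x => sh (F x)) (fun i => (hF (i + 1)).degB)
  have hrep := rep_of_deg (d * d) S hS hdeg hT
  have hy : ∀ x n, F x n = (fun z => F z 0) (S^[n] x) := by
    intro x n
    induction n generalizing x with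
    | zero => rfl
    | succ n ih =>
      rw [Function.iterate_succ_apply, ← ih]
      show F x (n + 1) = F (F.symm (sh (F x))) n
      rw [F.apply_symm_apply]
      rfl
  exact Tle_iter hrep (hF 0).continuous hy x

/-- Automorphisms of the Turing degrees induced by bijections of Cantor space such that the map
and its inverse are polynomial of uniformly bounded degree are trivial. -/
theorem main_poly (π : TDeg ≃o TDeg) (F : (ℕ → Bool) ≃ (ℕ → Bool)) (d : ℕ)
    (hF : ∀ n, PolyDeg d fun x => F x n) (hF' : ∀ n, PolyDeg d fun x => F.symm x n)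
    (hπ : ∀ x, π (deg x) = deg (F x)) : π = OrderIso.refl TDeg := by
  have hA : ∀ x, Tle (F x) x := by
    refine core_poly F d hF hF' fun x => ?_
    rw [← deg_le_deg, ← π.le_iff_le, hπ, hπ, deg_le_deg, F.apply_symm_apply]
    exact Tle_sh _
  have hB : ∀ y, Tle (F.symm y) y := by
    refine core_poly F.symm d hF' (fun n => by simpa using hF n) fun x => ?_
    simp only [Equiv.symm_symm]
    obtain ⟨w, rfl⟩ := F.surjective x
    rw [F.symm_apply_apply, ← deg_le_deg, ← hπ, ← hπ, π.le_iff_le, deg_le_deg]
    exact Tle_sh _
  have hfix : ∀ x, π (deg x) = deg x := by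
    intro x
    rw [hπ]
    refine le_antisymm (hA x) ?_
    have h := hB (F x)
    rw [F.symm_apply_apply] at h
    exact h
  ext a
  obtain ⟨x, rfl⟩ := deg_surjective a
  exact hfix x

end Vale.Agent.Lib.P327
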