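import Vale.Agent.Lib.P327.Matrix

/-!
From the computable matrix of the conjugated shift to the reducibility `F x ≤_T x`.
-/

namespace Vale.Agent.Lib.P327

open Encodable Denumerable

theorem computable_flatMap {r : ℕ → List ℕ} (hr : Computable r) :
    Computable (fun l : List ℕ => l.flatMap r) := by
  have hh : Computable₂ (fun (l : List ℕ) (q : ℕ × List ℕ) =>
      q.2 ++ ((l[q.1]?).map r).getD []) := by
    refine Computable₂.mk ?_
    refine Computable.list_append.comp (Computable.snd.comp Computable.snd) ?_
    refine Computable.option_getD (Computable.option_map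
      (Computable.list_getElem?.comp Computable.fst (Computable.fst.comp Computable.snd))
      (hr.comp Computable.snd).to₂) (Computable.const [])
  refine (Computable.nat_rec Computable.list_length (Computable.const []) hh).of_eq fun l => ?_
  have key : ∀ k, Nat.rec (motive := fun _ => List ℕ) [] (fun y IH => IH ++ ((l[y]?).map r).getD []) k
      = (l.take k).flatMap r := by
    intro k
    induction k with
    | zero => simp
    | succ k ih =>
      simp only
      rw [ih, List.take_add_one, List.flatMap_append]
      cases l[k]? <;> simp
  rw [key, List.take_length]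

/-- Parity of the first `k` listed positions, as used in the oracle computation. -/
def pk (x : ℕ → Bool) (l : List ℕ) : ℕ → Bool
  | 0 => false
  | k + 1 => xor (pk x l k) (x ((l[k]?).getD 0))

theorem pk_length (x : ℕ → Bool) (l : List ℕ) : pk x l l.length = par x l := by
  have key : ∀ k, k ≤ l.length → pk x l k = par x (l.take k) := by
    intro k
    induction k with
    | zero => intro _; simp [pk, par]
    | succ k ih =>
      intro hk
      rw [pk, ih (by omega), List.take_add_one, par_append, List.getElem?_eq_getElem (by omega)]
      simp [par]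
  rw [key _ le_rfl, List.take_length]

/-- A real given by computable parities of `x` is reducible to `x`. -/
theorem Tle_of_par {x y : ℕ → Bool} {t : ℕ → List ℕ} (ht : Computable t)
    (h : ∀ n, y n = par x (t n)) : Tle y x := by
  let O : Set (ℕ →. ℕ) := {chi x}
  let idx : ℕ → ℕ := fun q => ((ofNat (List ℕ) q.unpair.1)[q.unpair.2.unpair.1]?).getD 0
  have hidx : Primrec idx := by
    refine Primrec.option_getD.comp (Primrec.list_getElem?.comp
      ((Primrec.ofNat (List ℕ)).comp (Primrec.fst.comp Primrec.unpair))
      (Primrec.fst.comp (Primrec.unpair.comp (Primrec.snd.comp Primrec.unpair))))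
      (Primrec.const 0)
  have rec_of_comp : ∀ {f : ℕ → ℕ}, Computable f → Nat.RecursiveIn O (fun n => Part.some (f n)) :=
    fun hf => Nat.Partrec.recursiveIn (Partrec.nat_iff.1 hf.partrec)
  have h1 : Nat.RecursiveIn O (fun q => chi x (idx q)) := by
    have := Nat.RecursiveIn.comp (Nat.RecursiveIn.oracle (chi x) (Set.mem_singleton _))
      (rec_of_comp hidx.to_comp)
    refine this.of_eq fun q => ?_
    exact Part.bind_some _ _
  let xr : ℕ → ℕ := fun w => (xor (Nat.bodd w.unpair.1) (Nat.bodd w.unpair.2)).toNat
  have hxr : Computable xr := by
    refine ((Primrec.dom_bool Bool.toNat).comp ((Primrec.dom_bool₂ xor).comp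
      (Primrec.nat_bodd.comp (Primrec.fst.comp Primrec.unpair))
      (Primrec.nat_bodd.comp (Primrec.snd.comp Primrec.unpair)))).to_comp
  have h2 : Nat.RecursiveIn O (fun q => Part.some q.unpair.2.unpair.2) :=
    rec_of_comp (Computable.snd.comp (Computable.unpair.comp (Computable.snd.comp Computable.unpair)))
  have h3 : Nat.RecursiveIn O (fun q => Part.some
      (xor (Nat.bodd q.unpair.2.unpair.2) (x (idx q))).toNat) := by
    have := Nat.RecursiveIn.comp (rec_of_comp hxr) (Nat.RecursiveIn.pair h2 h1)
    refine this.of_eq fun q => ?_
    apply Part.ext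
    intro v
    simp [chi, xr, seq_eq_bind_map, Part.mem_some_iff]
    cases x (idx q) <;> simp
  have hz : Nat.RecursiveIn O (fun _ => 0) := Nat.RecursiveIn.zero
  have hP := Nat.RecursiveIn.prec hz h3
  have hval : ∀ (a k : ℕ), (Nat.rec (motive := fun _ => Part ℕ) ((fun _ => (0 : Part ℕ)) a)
      (fun y IH => IH.bind fun i => (fun q => Part.some
        (xor (Nat.bodd q.unpair.2.unpair.2) (x (idx q))).toNat) (Nat.pair a (Nat.pair y i))) k)
      = Part.some (pk x (ofNat (List ℕ) a) k).toNat := by
    intro a k
    induction k with
    | zero => rfl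
    | succ k ih =>
      simp only
      rw [ih]
      simp only [Part.bind_some, Nat.unpair_pair, idx, pk]
      congr 2
      cases pk x (ofNat (List ℕ) a) k <;> rfl
  have hT : Computable (fun n : ℕ => Nat.pair (encode (t n)) (t n).length) :=
    Primrec₂.natPair.to_comp.comp (Computable.encode.comp ht) (Computable.list_length.comp ht)
  have hfinal := Nat.RecursiveIn.comp hP (rec_of_comp hT)
  refine RecursiveIn.iff_nat.2 (hfinal.of_eq fun n => ?_)
  simp only [Part.bind_eq_bind, Part.bind_some, Nat.unpair_pair]
  have := hval (encode (t n)) (t n).length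
  simp only [chi]
  rw [h n, ← pk_length, ← ofNat_encode (t n)]
  simpa using this

end Vale.Agent.Lib.P327
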