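import Vale.Agent.Lib.P327.Linear

/-!
The matrix of a continuous additive reducible map is computable.
-/

namespace Vale.Agent.Lib.P327

open Encodable

section DC

variable {S : (ℕ → Bool) → ℕ → Bool} {c : OC} {σ : List Bool}

/-- The use of `S` at `n` has a computable bound. -/
theorem exists_bound (hS : Continuous S) (hadd : ∀ x y n, S (bxor x y) n = xor (S x n) (S y n))
    (hd : DenseCorrect S c σ) :
    ∃ B : ℕ → ℕ, Computable B ∧ ∀ n (z : ℕ → Bool), (∀ i < B n, z i = false) → S z n = false := by
  obtain ⟨run, hrun, hsound, hcomplete⟩ := exists_run c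
  have ht : Primrec₂ (fun (n : ℕ) (p : List Bool × ℕ) =>
      (run (p.2, σ ++ p.1, n)).map (fun _ => (σ ++ p.1).length)) := by
    have hargs : Primrec (fun a : ℕ × (List Bool × ℕ) => (a.2.2, σ ++ a.2.1, a.1)) :=
      Primrec.pair (Primrec.snd.comp Primrec.snd)
        (Primrec.pair (Primrec.list_append.comp (Primrec.const σ)
          (Primrec.fst.comp Primrec.snd)) Primrec.fst)
    have hval : Primrec₂ (fun (a : ℕ × (List Bool × ℕ)) (_ : ℕ) => (σ ++ a.2.1).length) :=
      (Primrec.list_length.comp (Primrec.list_append.comp (Primrec.const σ)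
        (Primrec.fst.comp (Primrec.snd.comp Primrec.fst)))).to₂
    exact Primrec.option_map (hrun.comp hargs) hval
  have hex : ∀ n, ∃ (p : List Bool × ℕ) (s : ℕ),
      (run (p.2, σ ++ p.1, n)).map (fun _ => (σ ++ p.1).length) = some s := by
    intro n
    obtain ⟨τ, v, hv⟩ := dc_converge hd (ρ := σ) subset_rfl n
    obtain ⟨k0, hk0⟩ := hcomplete _ _ _ hv
    refine ⟨(τ, k0), (σ ++ τ).length, ?_⟩
    simp only
    rw [hk0 k0 le_rfl]
    rfl
  obtain ⟨B, hB, hspec⟩ := search ht hex
  refine ⟨B, hB, fun n z hz => ?_⟩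
  obtain ⟨p, hp⟩ := hspec n
  rw [Option.map_eq_some_iff] at hp
  obtain ⟨v, hv, hlen⟩ := hp
  have hv' := hsound _ _ _ _ hv
  exact dc_vanish hS hadd hd (fun x hx => mem_cyl_append hx) hv' z
    (fun i hi => hz i (by rw [← hlen]; exact hi))

/-- The bits of `S` on unit vectors past `σ` are computable. -/
theorem exists_bits (hS : Continuous S) (hadd : ∀ x y n, S (bxor x y) n = xor (S x n) (S y n))
    (hd : DenseCorrect S c σ) :
    ∃ g : ℕ × ℕ → Bool, Computable g ∧ ∀ i n, σ.length ≤ i → g (i, n) = S (eb i) n := by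
  obtain ⟨run, hrun, hsound, hcomplete⟩ := exists_run c
  let main : (ℕ × ℕ) × (List Bool × List Bool × ℕ) → Option Bool := fun a =>
    (run (a.2.2.2, σ ++ a.2.1 ++ false :: a.2.2.1, a.1.2)).bind fun v₁ =>
      (run (a.2.2.2, σ ++ a.2.1 ++ true :: a.2.2.1, a.1.2)).map fun v₂ =>
        xor (Nat.bodd v₁) (Nat.bodd v₂)
  have hmain : Primrec main := by
    have hl : ∀ b : Bool, Primrec (fun a : (ℕ × ℕ) × (List Bool × List Bool × ℕ) =>
        σ ++ a.2.1 ++ b :: a.2.2.1) := fun b =>
      Primrec.list_append.comp (Primrec.list_append.comp (Primrec.const σ)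
        (Primrec.fst.comp Primrec.snd))
        (Primrec.list_cons.comp (Primrec.const b)
          (Primrec.fst.comp (Primrec.snd.comp Primrec.snd)))
    have hr : ∀ b : Bool, Primrec (fun a : (ℕ × ℕ) × (List Bool × List Bool × ℕ) =>
        run (a.2.2.2, σ ++ a.2.1 ++ b :: a.2.2.1, a.1.2)) := fun b =>
      hrun.comp (Primrec.pair (Primrec.snd.comp (Primrec.snd.comp Primrec.snd))
        (Primrec.pair (hl b) (Primrec.snd.comp Primrec.fst)))
    have hin : Primrec₂ (fun (q : ((ℕ × ℕ) × (List Bool × List Bool × ℕ)) × ℕ) (v₂ : ℕ) =>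
        xor (Nat.bodd q.2) (Nat.bodd v₂)) :=
      ((Primrec.dom_bool₂ xor).comp (Primrec.nat_bodd.comp (Primrec.snd.comp Primrec.fst))
        (Primrec.nat_bodd.comp Primrec.snd)).to₂
    have hg : Primrec₂ (fun (a : (ℕ × ℕ) × (List Bool × List Bool × ℕ)) (v₁ : ℕ) =>
        (run (a.2.2.2, σ ++ a.2.1 ++ true :: a.2.2.1, a.1.2)).map fun v₂ =>
          xor (Nat.bodd v₁) (Nat.bodd v₂)) :=
      Primrec.option_map ((hr true).comp Primrec.fst) hin
    exact Primrec.option_bind (hr false) hg
  let test : ℕ × ℕ → List Bool × List Bool × ℕ → Option Bool := fun a p =>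
    if a.1 < σ.length then some false
    else if (σ ++ p.1).length = a.1 then main (a, p) else none
  have ht : Primrec₂ test := by
    have h1 : PrimrecPred (fun q : (ℕ × ℕ) × (List Bool × List Bool × ℕ) => q.1.1 < σ.length) :=
      Primrec.nat_lt.comp (Primrec.fst.comp Primrec.fst) (Primrec.const σ.length)
    have h2 : PrimrecPred (fun q : (ℕ × ℕ) × (List Bool × List Bool × ℕ) =>
        (σ ++ q.2.1).length = q.1.1) :=
      Primrec.eq.comp (Primrec.list_length.comp (Primrec.list_append.comp (Primrec.const σ)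
        (Primrec.fst.comp Primrec.snd))) (Primrec.fst.comp Primrec.fst)
    exact Primrec.ite h1 (Primrec.const (some false))
      (Primrec.ite h2 hmain (Primrec.const none))
  have hex : ∀ a, ∃ p s, test a p = some s := by
    rintro ⟨i, n⟩
    by_cases hi : i < σ.length
    · exact ⟨([], [], 0), false, if_pos hi⟩
    · set α := σ ++ List.replicate (i - σ.length) false with hα
      have hlen : α.length = i := by
        simp [hα]
        omega
      obtain ⟨τ, v₁, v₂, h₁, h₂⟩ := dc_flip_converge hd (α := α)
        (fun x hx => mem_cyl_append hx) n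
      obtain ⟨k₁, hk₁⟩ := hcomplete _ _ _ h₁
      obtain ⟨k₂, hk₂⟩ := hcomplete _ _ _ h₂
      refine ⟨(List.replicate (i - σ.length) false, τ, max k₁ k₂),
        xor (Nat.bodd v₁) (Nat.bodd v₂), ?_⟩
      simp only [test]
      rw [if_neg hi, if_pos hlen]
      simp only [main]
      rw [hk₁ _ (le_max_left _ _), hk₂ _ (le_max_right _ _)]
      rfl
  obtain ⟨g, hg, hspec⟩ := search ht hex
  refine ⟨g, hg, fun i n hi => ?_⟩
  obtain ⟨p, hp⟩ := hspec (i, n)
  simp only [test] at hp
  rw [if_neg (by simpa using hi)] at hp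
  split_ifs at hp with hlen
  simp only [main, Option.bind_eq_some_iff, Option.map_eq_some_iff] at hp
  obtain ⟨v₁, hv₁, v₂, hv₂, hval⟩ := hp
  have h := dc_flip hS hadd hd (α := σ ++ p.1) (fun x hx => mem_cyl_append hx)
    (hsound _ _ _ _ hv₁) (hsound _ _ _ _ hv₂)
  rw [hlen] at h
  rw [h, ← hval]

/-- A real reducible to a computable one is computable. -/
theorem computable_of_Tle_eb {y : ℕ → Bool} {i : ℕ} (h : Tle y (eb i)) : Computable y := by
  have h1 : Nat.Partrec (chi (eb i)) := by
    have h2 : Computable (fun n : ℕ => (decide (n = i)).toNat) :=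
      ((Primrec.dom_bool Bool.toNat).comp
        (Primrec.eq.comp Primrec.id (Primrec.const i)).decide).to_comp
    exact Partrec.nat_iff.1 h2.partrec
  have h3 : Nat.Partrec (chi y) :=
    Nat.RecursiveIn.partrec_of_oracle (fun g hg => by rw [Set.mem_singleton_iff.1 hg]; exact h1)
      (RecursiveIn.iff_nat.1 h)
  have h4 : Computable (fun n : ℕ => (y n).toNat) := Partrec.nat_iff.2 h3
  refine (Computable.nat_bodd.comp h4).of_eq fun n => ?_
  cases y n <;> rfl

/-- Finitely many computable reals form a computable table. -/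
theorem exists_table (hT : ∀ x, Tle (S x) x) (L : ℕ) :
    ∃ tab : ℕ × ℕ → Bool, Computable tab ∧ ∀ i n, i < L → tab (i, n) = S (eb i) n := by
  induction L with
  | zero => exact ⟨fun _ => false, Computable.const false, fun i n hi => absurd hi (by omega)⟩
  | succ L ih =>
    obtain ⟨tab, htab, hspec⟩ := ih
    have hL : Computable (S (eb L)) := computable_of_Tle_eb (hT _)
    refine ⟨fun p => bif decide (p.1 = L) then S (eb L) p.2 else tab p, ?_, fun i n hi => ?_⟩
    · refine Computable.cond ?_ (hL.comp Computable.snd) htab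
      exact (Primrec.eq.comp Primrec.fst (Primrec.const L)).decide.to_comp
    · by_cases hiL : i = L
      · subst hiL
        simp
      · simp [hiL, hspec i n (by omega)]

/-- All bits of `S` on unit vectors are computable. -/
theorem exists_allBits (hS : Continuous S) (hadd : ∀ x y n, S (bxor x y) n = xor (S x n) (S y n))
    (hT : ∀ x, Tle (S x) x) (hd : DenseCorrect S c σ) :
    ∃ bit : ℕ × ℕ → Bool, Computable bit ∧ ∀ i n, bit (i, n) = S (eb i) n := by
  obtain ⟨g, hg, hgs⟩ := exists_bits hS hadd hd
  obtain ⟨tab, htab, hts⟩ := exists_table hT σ.length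
  refine ⟨fun p => bif decide (p.1 < σ.length) then tab p else g p, ?_, fun i n => ?_⟩
  · refine Computable.cond ?_ htab hg
    exact (Primrec.nat_lt.comp Primrec.fst (Primrec.const σ.length)).decide.to_comp
  · by_cases hi : i < σ.length
    · simp [hi, hts i n hi]
    · simp [hi, hgs i n (by omega)]

end DC

/-- The transposed matrix of a continuous additive map with `S x ≤_T x` is computable. -/
theorem exists_matrix {S : (ℕ → Bool) → ℕ → Bool} (hS : Continuous S)
    (hadd : ∀ x y n, S (bxor x y) n = xor (S x n) (S y n)) (hT : ∀ x, Tle (S x) x) :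
    ∃ r : ℕ → List ℕ, Computable r ∧ ∀ x n, S x n = par x (r n) := by
  obtain ⟨c, σ, hd⟩ := exists_denseCorrect hT
  obtain ⟨B, hB, hBs⟩ := exists_bound hS hadd hd
  obtain ⟨bit, hbit, hbs⟩ := exists_allBits hS hadd hT hd
  refine ⟨fun n => rr (fun i => bit (i, n)) (B n), ?_, fun x n => ?_⟩
  · have hh : Computable₂ (fun (n : ℕ) (q : ℕ × List ℕ) =>
        q.2 ++ (bif bit (q.1, n) then [q.1] else [])) := by
      refine Computable₂.mk ?_
      refine Computable.list_append.comp (Computable.snd.comp Computable.snd) ?_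
      refine Computable.cond (hbit.comp (Computable.pair
        (Computable.fst.comp Computable.snd) Computable.fst))
        (Computable.list_cons.comp (Computable.fst.comp Computable.snd) (Computable.const []))
        (Computable.const [])
    refine (Computable.nat_rec hB (Computable.const []) hh).of_eq fun n => ?_
    generalize B n = k
    induction k with
    | zero => rfl
    | succ k ih =>
      simp only [rr]
      rw [← ih]
  · have hadd' : ∀ x y, (fun z => S z n) (bxor x y) = xor ((fun z => S z n) x) ((fun z => S z n) y) :=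
      fun x y => hadd x y n
    have h := rep (f := fun z => S z n) hadd' (B := B n) (hBs n) x
    rw [h]
    congr 2
    funext i
    exact (hbs i n).symm

end Vale.Agent.Lib.P327
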