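import Vale.Agent.Lib.P327.Defs

/-!
Oracle codes for relative computability of reals coded as Bool sequences: a countable family of
functionals, their monotonicity and compactness, and uniform computability on finite oracles.
-/

namespace Vale.Agent.Lib.P327

open Encodable

/-- Codes of oracle functionals. -/
inductive OC : Type where
  | zero | succ | left | right | oracle
  | pair (a b : OC) | comp (a b : OC) | prec (a b : OC) | rfind (a : OC)

/-- Injective numbering of codes. -/
def OC.enc : OC → ℕ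
  | .zero => Nat.pair 0 0
  | .succ => Nat.pair 1 0
  | .left => Nat.pair 2 0
  | .right => Nat.pair 3 0
  | .oracle => Nat.pair 4 0
  | .pair a b => Nat.pair 5 (Nat.pair a.enc b.enc)
  | .comp a b => Nat.pair 6 (Nat.pair a.enc b.enc)
  | .prec a b => Nat.pair 7 (Nat.pair a.enc b.enc)
  | .rfind a => Nat.pair 8 a.enc

theorem OC.enc_injective : Function.Injective OC.enc := by
  intro a
  induction a with
  | zero => intro b h; cases b <;> simp_all [OC.enc, Nat.pair_eq_pair]
  | succ => intro b h; cases b <;> simp_all [OC.enc, Nat.pair_eq_pair]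
  | left => intro b h; cases b <;> simp_all [OC.enc, Nat.pair_eq_pair]
  | right => intro b h; cases b <;> simp_all [OC.enc, Nat.pair_eq_pair]
  | oracle => intro b h; cases b <;> simp_all [OC.enc, Nat.pair_eq_pair]
  | pair a₁ a₂ ih₁ ih₂ =>
    intro b h
    cases b <;> simp [OC.enc, Nat.pair_eq_pair] at h
    exact congrArg₂ _ (ih₁ h.1) (ih₂ h.2)
  | comp a₁ a₂ ih₁ ih₂ =>
    intro b h
    cases b <;> simp [OC.enc, Nat.pair_eq_pair] at h
    exact congrArg₂ _ (ih₁ h.1) (ih₂ h.2)
  | prec a₁ a₂ ih₁ ih₂ =>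
    intro b h
    cases b <;> simp [OC.enc, Nat.pair_eq_pair] at h
    exact congrArg₂ _ (ih₁ h.1) (ih₂ h.2)
  | rfind a₁ ih₁ =>
    intro b h
    cases b <;> simp [OC.enc, Nat.pair_eq_pair] at h
    exact congrArg _ (ih₁ h)

instance : Countable OC := OC.enc_injective.countable

/-- Semantics of a code relative to an oracle; mirrors `Nat.RecursiveIn`. -/
def OC.eval (g : ℕ →. ℕ) : OC → ℕ →. ℕ
  | .zero => fun _ => 0
  | .succ => fun n => Part.some n.succ
  | .left => fun n => (Nat.unpair n).1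
  | .right => fun n => (Nat.unpair n).2
  | .oracle => g
  | .pair a b => fun n => Nat.pair <$> a.eval g n <*> b.eval g n
  | .comp a b => fun n => b.eval g n >>= a.eval g
  | .prec a b => fun p =>
      let (x, n) := Nat.unpair p
      n.rec (a.eval g x) fun y IH => do
        let i ← IH
        b.eval g (Nat.pair x (Nat.pair y i))
  | .rfind a => fun x => Nat.rfind fun n => (fun m => m = 0) <$> a.eval g (Nat.pair x n)

theorem exists_code {g f : ℕ →. ℕ} (h : Nat.RecursiveIn {g} f) : ∃ c : OC, c.eval g = f := by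
  induction h with
  | zero => exact ⟨.zero, rfl⟩
  | succ => exact ⟨.succ, rfl⟩
  | left => exact ⟨.left, rfl⟩
  | right => exact ⟨.right, rfl⟩
  | oracle g' hg' =>
    rw [Set.mem_singleton_iff] at hg'
    subst hg'
    exact ⟨.oracle, rfl⟩
  | pair _ _ ih₁ ih₂ =>
    obtain ⟨a, rfl⟩ := ih₁
    obtain ⟨b, rfl⟩ := ih₂
    exact ⟨.pair a b, rfl⟩
  | comp _ _ ih₁ ih₂ =>
    obtain ⟨a, rfl⟩ := ih₁
    obtain ⟨b, rfl⟩ := ih₂
    exact ⟨.comp a b, rfl⟩
  | prec _ _ ih₁ ih₂ =>
    obtain ⟨a, rfl⟩ := ih₁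
    obtain ⟨b, rfl⟩ := ih₂
    exact ⟨.prec a b, rfl⟩
  | rfind _ ih₁ =>
    obtain ⟨a, rfl⟩ := ih₁
    exact ⟨.rfind a, rfl⟩

/-- The oracle `g'` extends `g`. -/
def OExt (g g' : ℕ →. ℕ) : Prop := ∀ i v, v ∈ g i → v ∈ g' i

theorem mem_eval_pair {g : ℕ →. ℕ} {a b : OC} {n v : ℕ} :
    v ∈ (OC.pair a b).eval g n ↔ ∃ u ∈ a.eval g n, ∃ w ∈ b.eval g n, v = Nat.pair u w := by
  simp only [OC.eval, seq_eq_bind_map, Part.bind_eq_bind, Part.mem_bind_iff, Part.map_eq_map,
    Part.mem_map_iff]
  constructor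
  · rintro ⟨_, ⟨u, hu, rfl⟩, w, hw, rfl⟩
    exact ⟨u, hu, w, hw, rfl⟩
  · rintro ⟨u, hu, w, hw, rfl⟩
    exact ⟨_, ⟨u, hu, rfl⟩, w, hw, rfl⟩

theorem mem_eval_comp {g : ℕ →. ℕ} {a b : OC} {n v : ℕ} :
    v ∈ (OC.comp a b).eval g n ↔ ∃ u ∈ b.eval g n, v ∈ a.eval g u := by
  exact Part.mem_bind_iff

theorem mem_eval_rfind {g : ℕ →. ℕ} {a : OC} {x v : ℕ} :
    v ∈ (OC.rfind a).eval g x ↔ 0 ∈ a.eval g (Nat.pair x v) ∧
      ∀ m, m < v → ∃ w, w ≠ 0 ∧ w ∈ a.eval g (Nat.pair x m) := by
  refine Nat.mem_rfind.trans ?_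
  simp only [Part.map_eq_map, Part.mem_map_iff, decide_eq_true_eq, decide_eq_false_iff_not]
  constructor
  · rintro ⟨⟨w, hw, rfl⟩, h⟩
    refine ⟨hw, fun m hm => ?_⟩
    obtain ⟨w', hw', hne⟩ := h hm
    exact ⟨w', hne, hw'⟩
  · rintro ⟨h0, h⟩
    refine ⟨⟨0, h0, rfl⟩, fun {m} hm => ?_⟩
    obtain ⟨w', hne, hw'⟩ := h m hm
    exact ⟨w', hw', hne⟩

/-- The primitive recursion of a code. -/
def precF (g : ℕ →. ℕ) (a b : OC) (x : ℕ) : ℕ →. ℕ
  | 0 => a.eval g x
  | m + 1 => (precF g a b x m).bind fun i => b.eval g (Nat.pair x (Nat.pair m i))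

theorem eval_precE {g : ℕ →. ℕ} {a b : OC} (p : ℕ) :
    (OC.prec a b).eval g p = precF g a b (Nat.unpair p).1 (Nat.unpair p).2 := by
  simp only [OC.eval]
  generalize (Nat.unpair p).2 = m
  induction m with
  | zero => rfl
  | succ m ih =>
    simp only [precF]
    rw [← ih]
    rfl

theorem mem_precF_succ {g : ℕ →. ℕ} {a b : OC} {x m v : ℕ} :
    v ∈ precF g a b x (m + 1) ↔ ∃ i ∈ precF g a b x m, v ∈ b.eval g (Nat.pair x (Nat.pair m i)) := by
  simp only [precF, Part.mem_bind_iff]

theorem mem_precF_mono {g g' : ℕ →. ℕ} {a b : OC}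
    (iha : ∀ n v, v ∈ a.eval g n → v ∈ a.eval g' n)
    (ihb : ∀ n v, v ∈ b.eval g n → v ∈ b.eval g' n) (x : ℕ) :
    ∀ n v, v ∈ precF g a b x n → v ∈ precF g' a b x n := by
  intro n
  induction n with
  | zero => intro v hv; exact iha _ _ hv
  | succ n ih =>
    intro v hv
    rw [mem_precF_succ] at hv ⊢
    obtain ⟨i, hi, hv⟩ := hv
    exact ⟨i, ih i hi, ihb _ _ hv⟩

/-- Monotonicity in the oracle. -/
theorem eval_mono {g g' : ℕ →. ℕ} (h : OExt g g') (c : OC) :
    ∀ n v, v ∈ c.eval g n → v ∈ c.eval g' n := by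
  induction c with
  | zero | succ | left | right => intro n v hv; exact hv
  | oracle => intro n v hv; exact h n v hv
  | pair a b iha ihb =>
    intro n v hv
    rw [mem_eval_pair] at hv ⊢
    obtain ⟨u, hu, w, hw, rfl⟩ := hv
    exact ⟨u, iha _ _ hu, w, ihb _ _ hw, rfl⟩
  | comp a b iha ihb =>
    intro n v hv
    rw [mem_eval_comp] at hv ⊢
    obtain ⟨u, hu, hv⟩ := hv
    exact ⟨u, ihb _ _ hu, iha _ _ hv⟩
  | prec a b iha ihb =>
    intro n v hv
    rw [eval_precE] at hv ⊢
    exact mem_precF_mono iha ihb _ _ v hv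
  | rfind a iha =>
    intro n v hv
    rw [mem_eval_rfind] at hv ⊢
    refine ⟨iha _ _ hv.1, fun m hm => ?_⟩
    obtain ⟨w', hne, hw'⟩ := hv.2 m hm
    exact ⟨w', hne, iha _ _ hw'⟩

/-- Finite oracle given by a list of bits. -/
def orcL (ρ : List Bool) : ℕ →. ℕ := fun i => ((ρ[i]?).map Bool.toNat : Option ℕ)

/-- First `k` bits of a real. -/
def pref (x : ℕ → Bool) (k : ℕ) : List Bool := (List.range k).map x

theorem mem_orcL {ρ : List Bool} {i v : ℕ} :
    v ∈ orcL ρ i ↔ ∃ b, ρ[i]? = some b ∧ v = b.toNat := by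
  unfold orcL
  simp only [Part.mem_coe, Option.mem_def, Option.map_eq_some_iff]
  constructor
  · rintro ⟨b, hb, rfl⟩; exact ⟨b, hb, rfl⟩
  · rintro ⟨b, hb, rfl⟩; exact ⟨b, hb, rfl⟩

theorem mem_chi {x : ℕ → Bool} {i v : ℕ} : v ∈ chi x i ↔ v = (x i).toNat := by
  simp [chi, Part.mem_some_iff]

theorem length_pref (x : ℕ → Bool) (k : ℕ) : (pref x k).length = k := by
  simp [pref]

theorem getElem?_pref (x : ℕ → Bool) {k i : ℕ} (h : i < k) : (pref x k)[i]? = some (x i) := by
  simp [pref, h]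

theorem getElem?_pref_none (x : ℕ → Bool) {k i : ℕ} (h : k ≤ i) : (pref x k)[i]? = none := by
  simp [pref, h]

theorem orcL_pref_ext_chi (x : ℕ → Bool) (k : ℕ) : OExt (orcL (pref x k)) (chi x) := by
  intro i v hv
  rw [mem_orcL] at hv
  obtain ⟨b, hb, rfl⟩ := hv
  by_cases h : i < k
  · rw [getElem?_pref x h] at hb
    exact mem_chi.2 (by rw [Option.some.inj hb])
  · rw [getElem?_pref_none x (by omega)] at hb
    exact absurd hb (by simp)

theorem orcL_pref_mono (x : ℕ → Bool) {k k' : ℕ} (h : k ≤ k') :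
    OExt (orcL (pref x k)) (orcL (pref x k')) := by
  intro i v hv
  rw [mem_orcL] at hv ⊢
  obtain ⟨b, hb, rfl⟩ := hv
  have hik : i < k := by
    by_contra hc
    rw [getElem?_pref_none x (by omega)] at hb
    exact absurd hb (by simp)
  rw [getElem?_pref x hik] at hb
  exact ⟨b, by rw [getElem?_pref x (lt_of_lt_of_le hik h)]; exact hb, rfl⟩

/-- A longer list extends the oracle of its prefix. -/
theorem orcL_append_ext (ρ τ : List Bool) : OExt (orcL ρ) (orcL (ρ ++ τ)) := by
  intro i v hv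
  rw [mem_orcL] at hv ⊢
  obtain ⟨b, hb, rfl⟩ := hv
  refine ⟨b, ?_, rfl⟩
  rw [List.getElem?_append_left]
  · exact hb
  · by_contra hc
    rw [List.getElem?_eq_none (by omega)] at hb
    exact absurd hb (by simp)

/-- Compactness: a convergent computation from `chi x` uses only a finite prefix of `x`. -/
theorem eval_compact (x : ℕ → Bool) (c : OC) :
    ∀ n v, v ∈ c.eval (chi x) n → ∃ k, v ∈ c.eval (orcL (pref x k)) n := by
  have mono : ∀ (c : OC) {k k' : ℕ} (n v : ℕ), k ≤ k' → v ∈ c.eval (orcL (pref x k)) n →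
      v ∈ c.eval (orcL (pref x k')) n := fun c {k k'} n v h hv =>
    eval_mono (orcL_pref_mono x h) c n v hv
  induction c with
  | zero => intro n v hv; exact ⟨0, hv⟩
  | succ => intro n v hv; exact ⟨0, hv⟩
  | left => intro n v hv; exact ⟨0, hv⟩
  | right => intro n v hv; exact ⟨0, hv⟩
  | oracle =>
    intro n v hv
    refine ⟨n + 1, ?_⟩
    have hv' := mem_chi.1 hv
    show v ∈ orcL _ n
    rw [mem_orcL]
    exact ⟨x n, getElem?_pref x (Nat.lt_succ_self n), hv'⟩
  | pair a b iha ihb =>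
    intro n v hv
    rw [mem_eval_pair] at hv
    obtain ⟨u, hu, w, hw, rfl⟩ := hv
    obtain ⟨k₁, h₁⟩ := iha _ _ hu
    obtain ⟨k₂, h₂⟩ := ihb _ _ hw
    refine ⟨max k₁ k₂, ?_⟩
    rw [mem_eval_pair]
    exact ⟨u, mono a _ _ (le_max_left _ _) h₁, w, mono b _ _ (le_max_right _ _) h₂, rfl⟩
  | comp a b iha ihb =>
    intro n v hv
    rw [mem_eval_comp] at hv
    obtain ⟨u, hu, hv⟩ := hv
    obtain ⟨k₁, h₁⟩ := ihb _ _ hu
    obtain ⟨k₂, h₂⟩ := iha _ _ hv
    refine ⟨max k₁ k₂, ?_⟩
    rw [mem_eval_comp]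
    exact ⟨u, mono b _ _ (le_max_left _ _) h₁, mono a _ _ (le_max_right _ _) h₂⟩
  | prec a b iha ihb =>
    intro p v hv
    rw [eval_precE] at hv
    have key : ∀ (m v : ℕ), v ∈ precF (chi x) a b (Nat.unpair p).1 m →
        ∃ k, v ∈ precF (orcL (pref x k)) a b (Nat.unpair p).1 m := by
      intro m
      induction m with
      | zero =>
        intro v hv
        obtain ⟨k, hk⟩ := iha _ _ hv
        exact ⟨k, hk⟩
      | succ m ih =>
        intro v hv
        rw [mem_precF_succ] at hv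
        obtain ⟨i, hi, hv⟩ := hv
        obtain ⟨k₁, h₁⟩ := ih i hi
        obtain ⟨k₂, h₂⟩ := ihb _ _ hv
        refine ⟨max k₁ k₂, ?_⟩
        rw [mem_precF_succ]
        refine ⟨i, ?_, mono b _ _ (le_max_right _ _) h₂⟩
        exact mem_precF_mono (fun n v h => mono a n v (le_max_left k₁ k₂) h)
          (fun n v h => mono b n v (le_max_left k₁ k₂) h) _ _ _ h₁
    obtain ⟨k, hk⟩ := key _ _ hv
    refine ⟨k, ?_⟩
    rw [eval_precE]
    exact hk
  | rfind a iha =>
    intro n v hv
    rw [mem_eval_rfind] at hv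
    obtain ⟨h0, hlt⟩ := hv
    obtain ⟨k₀, h₀⟩ := iha _ _ h0
    have : ∀ t, t ≤ v → ∃ k, ∀ m, m < t → ∃ w', w' ≠ 0 ∧ w' ∈ a.eval (orcL (pref x k)) (Nat.pair n m) := by
      intro t
      induction t with
      | zero => intro _; exact ⟨0, fun m hm => absurd hm (Nat.not_lt_zero _)⟩
      | succ t ih =>
        intro ht
        obtain ⟨k, hk⟩ := ih (by omega)
        obtain ⟨w', hne, hw'⟩ := hlt t (by omega)
        obtain ⟨k', hk'⟩ := iha _ _ hw'
        refine ⟨max k k', fun m hm => ?_⟩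
        by_cases hmt : m < t
        · obtain ⟨w'', h2, h1⟩ := hk m hmt
          exact ⟨w'', h2, mono a _ _ (le_max_left _ _) h1⟩
        · have : m = t := by omega
          subst this
          exact ⟨w', hne, mono a _ _ (le_max_right _ _) hk'⟩
    obtain ⟨k₁, h₁⟩ := this v le_rfl
    refine ⟨max k₀ k₁, ?_⟩
    rw [mem_eval_rfind]
    refine ⟨mono a _ _ (le_max_left _ _) h₀, fun m hm => ?_⟩
    obtain ⟨w', h2, h1⟩ := h₁ m hm
    exact ⟨w', h2, mono a _ _ (le_max_right _ _) h1⟩

/-- The finite oracle is uniformly computable. -/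
theorem orcL_partrec : Partrec fun p : List Bool × ℕ => orcL p.1 p.2 := by
  have h : Computable fun p : List Bool × ℕ => (p.1[p.2]?).map Bool.toNat :=
    Computable.option_map (Computable.list_getElem?.comp Computable.fst Computable.snd)
      ((Primrec.dom_bool Bool.toNat).to_comp.comp Computable.snd).to₂
  exact Computable.ofOption h

theorem eval_zero_partrec :
    Partrec fun p : List Bool × ℕ => (OC.zero).eval (orcL p.1) p.2 :=
  (Computable.const (α := List Bool × ℕ) (0 : ℕ)).partrec.of_eq fun _ => rfl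

theorem eval_succ_partrec :
    Partrec fun p : List Bool × ℕ => (OC.succ).eval (orcL p.1) p.2 :=
  (Computable.partrec (f := fun p : List Bool × ℕ => p.2.succ)
      (Computable.succ.comp Computable.snd)).of_eq fun _ => rfl

theorem eval_left_partrec :
    Partrec fun p : List Bool × ℕ => (OC.left).eval (orcL p.1) p.2 :=
  (Computable.partrec (f := fun p : List Bool × ℕ => (Nat.unpair p.2).1)
      (Computable.fst.comp (Computable.unpair.comp Computable.snd))).of_eq fun _ => rfl

theorem eval_right_partrec :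
    Partrec fun p : List Bool × ℕ => (OC.right).eval (orcL p.1) p.2 :=
  (Computable.partrec (f := fun p : List Bool × ℕ => (Nat.unpair p.2).2)
      (Computable.snd.comp (Computable.unpair.comp Computable.snd))).of_eq fun _ => rfl

theorem eval_pair_partrec {a b : OC}
    (iha : Partrec fun p : List Bool × ℕ => a.eval (orcL p.1) p.2)
    (ihb : Partrec fun p : List Bool × ℕ => b.eval (orcL p.1) p.2) :
    Partrec fun p : List Bool × ℕ => (OC.pair a b).eval (orcL p.1) p.2 := by
  have h2 : Partrec fun q : (List Bool × ℕ) × ℕ => (b.eval (orcL q.1.1) q.1.2).map (Nat.pair q.2) :=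
    Partrec.map (f := fun q : (List Bool × ℕ) × ℕ => b.eval (orcL q.1.1) q.1.2)
      (g := fun q w => Nat.pair q.2 w) (ihb.comp Computable.fst)
      (Primrec₂.natPair.to_comp.comp (Computable.snd.comp Computable.fst) Computable.snd).to₂
  have h := Partrec.bind iha h2.to₂
  refine h.of_eq ?_
  rintro ⟨ρ, n⟩
  apply Part.ext
  intro v
  show v ∈ _ ↔ v ∈ (OC.pair a b).eval (orcL ρ) n
  rw [mem_eval_pair]
  simp only [Part.mem_bind_iff, Part.mem_map_iff]
  constructor
  · rintro ⟨u, hu, w, hw, rfl⟩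
    exact ⟨u, hu, w, hw, rfl⟩
  · rintro ⟨u, hu, w, hw, rfl⟩
    exact ⟨u, hu, w, hw, rfl⟩

theorem eval_comp_partrec {a b : OC}
    (iha : Partrec fun p : List Bool × ℕ => a.eval (orcL p.1) p.2)
    (ihb : Partrec fun p : List Bool × ℕ => b.eval (orcL p.1) p.2) :
    Partrec fun p : List Bool × ℕ => (OC.comp a b).eval (orcL p.1) p.2 := by
  have h2 : Partrec fun q : (List Bool × ℕ) × ℕ => a.eval (orcL q.1.1) q.2 :=
    iha.comp (Computable.pair (Computable.fst.comp Computable.fst) Computable.snd)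
  have h := Partrec.bind ihb h2.to₂
  refine h.of_eq ?_
  rintro ⟨ρ, n⟩
  apply Part.ext
  intro v
  show v ∈ _ ↔ v ∈ (OC.comp a b).eval (orcL ρ) n
  rw [mem_eval_comp]
  simp only [Part.mem_bind_iff]

theorem eval_prec_partrec {a b : OC}
    (iha : Partrec fun p : List Bool × ℕ => a.eval (orcL p.1) p.2)
    (ihb : Partrec fun p : List Bool × ℕ => b.eval (orcL p.1) p.2) :
    Partrec fun p : List Bool × ℕ => (OC.prec a b).eval (orcL p.1) p.2 := by
  have h0 : Partrec fun p : List Bool × ℕ => a.eval (orcL p.1) (Nat.unpair p.2).1 :=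
    iha.comp (Computable.pair Computable.fst
      (Computable.fst.comp (Computable.unpair.comp Computable.snd)))
  have h1 : Partrec fun q : (List Bool × ℕ) × (ℕ × ℕ) =>
      b.eval (orcL q.1.1) (Nat.pair (Nat.unpair q.1.2).1 (Nat.pair q.2.1 q.2.2)) :=
    ihb.comp (Computable.pair (Computable.fst.comp Computable.fst)
        (Primrec₂.natPair.to_comp.comp
          (Computable.fst.comp (Computable.unpair.comp (Computable.snd.comp Computable.fst)))
          (Primrec₂.natPair.to_comp.comp (Computable.fst.comp Computable.snd)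
            (Computable.snd.comp Computable.snd))))
  have h := Partrec.nat_rec (f := fun p : List Bool × ℕ => (Nat.unpair p.2).2)
      (g := fun p : List Bool × ℕ => a.eval (orcL p.1) (Nat.unpair p.2).1)
      (h := fun p q => b.eval (orcL p.1) (Nat.pair (Nat.unpair p.2).1 (Nat.pair q.1 q.2)))
      (Computable.snd.comp (Computable.unpair.comp Computable.snd)) h0 h1.to₂
  refine h.of_eq ?_
  rintro ⟨ρ, p⟩
  show _ = (OC.prec a b).eval (orcL ρ) p
  rw [eval_precE]
  simp only
  generalize (Nat.unpair p).2 = m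
  induction m with
  | zero => rfl
  | succ m ih =>
    simp only [precF]
    rw [← ih]

theorem eval_rfind_partrec {a : OC}
    (iha : Partrec fun p : List Bool × ℕ => a.eval (orcL p.1) p.2) :
    Partrec fun p : List Bool × ℕ => (OC.rfind a).eval (orcL p.1) p.2 := by
  have h : Partrec₂ fun (p : List Bool × ℕ) (n : ℕ) =>
      (fun m : ℕ => decide (m = 0)) <$> a.eval (orcL p.1) (Nat.pair p.2 n) := by
    have h1 := Partrec.map (f := fun q : (List Bool × ℕ) × ℕ => a.eval (orcL q.1.1) (Nat.pair q.1.2 q.2))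
      (g := fun _ m => decide (m = 0))
      (iha.comp (Computable.pair (Computable.fst.comp Computable.fst)
        (Primrec₂.natPair.to_comp.comp (Computable.snd.comp Computable.fst) Computable.snd)))
      (Computable₂.mk ((Primrec.eq.comp Primrec.snd (Primrec.const 0)).decide.to_comp))
    exact h1.to₂
  exact (Partrec.rfind h).of_eq (fun _ => rfl)

/-- Uniform computability of a fixed code on finite oracles. -/
theorem eval_orcL_partrec (c : OC) :
    Partrec fun p : List Bool × ℕ => c.eval (orcL p.1) p.2 := by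
  induction c with
  | zero => exact eval_zero_partrec
  | succ => exact eval_succ_partrec
  | left => exact eval_left_partrec
  | right => exact eval_right_partrec
  | oracle => exact orcL_partrec
  | pair a b iha ihb => exact eval_pair_partrec iha ihb
  | comp a b iha ihb => exact eval_comp_partrec iha ihb
  | prec a b iha ihb => exact eval_prec_partrec iha ihb
  | rfind a iha => exact eval_rfind_partrec iha

end Vale.Agent.Lib.P327
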