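import Vale.Agent.Lib.P327.Core
import Vale.Agent.Lib.P327.Comeager

/-!
Automatic continuity: an additive Boolean functional on Cantor space with the property of Baire
is continuous. Hence additive bijections with the property of Baire are homeomorphisms.
-/

namespace Vale.Agent.Lib.P327

open Topology Filter

theorem additive_continuous {φ : (ℕ → Bool) → Bool}
    (hadd : ∀ x y, φ (bxor x y) = xor (φ x) (φ y))
    (hm : BaireMeasurableSet {x | φ x = true}) : Continuous φ := by
  by_cases h0 : ∀ x, φ x = false
  · have h1 : φ = fun _ => false := funext h0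
    rw [h1]
    exact continuous_const
  push Not at h0
  obtain ⟨e, he⟩ := h0
  have he' : φ e = true := by simpa using he
  have hBm : BaireMeasurableSet ({x | φ x = true}ᶜ : Set (ℕ → Bool)) := hm.compl
  obtain ⟨u, huo, hu⟩ := hBm.residualEq_isOpen
  have hu' : {x : ℕ → Bool | x ∈ ({x | φ x = true}ᶜ : Set (ℕ → Bool)) ↔ x ∈ u} ∈
      residual (ℕ → Bool) := Filter.eventuallyEq_set.1 hu
  have hmemB : ∀ x : ℕ → Bool, x ∈ ({x | φ x = true}ᶜ : Set (ℕ → Bool)) ↔ φ x = false := by
    intro x
    simp
  have hne : u.Nonempty := by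
    by_contra hemp
    rw [Set.not_nonempty_iff_eq_empty] at hemp
    have hC := Filter.inter_mem hu' (bxor_preimage_residual hu' e)
    obtain ⟨x, hx1, hx2⟩ := (dense_of_mem_residual hC).nonempty
    have h1 : φ x = true := by
      have h3 : x ∉ u := by rw [hemp]; exact Set.notMem_empty x
      have h4 : φ x ≠ false := fun h => h3 (hx1.1 ((hmemB x).2 h))
      simpa using h4
    have h2 : φ (bxor x e) = true := by
      have h3 : bxor x e ∉ u := by rw [hemp]; exact Set.notMem_empty _
      have hx2' : bxor x e ∈ ({x | φ x = true}ᶜ : Set (ℕ → Bool)) ↔ bxor x e ∈ u := hx2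
      have h4 : φ (bxor x e) ≠ false := fun h => h3 (hx2'.1 ((hmemB _).2 h))
      simpa using h4
    rw [hadd, h1, he'] at h2
    simp at h2
  obtain ⟨y, hy⟩ := hne
  obtain ⟨I, v, hv, hsub⟩ := isOpen_pi_iff.1 huo y hy
  have hcyl : ∀ z : ℕ → Bool, (∀ i < I.sup id + 1, z i = y i) → z ∈ u := by
    intro z hz
    apply hsub
    intro i hi
    have hlt : i < I.sup id + 1 := Nat.lt_succ_of_le (Finset.le_sup (f := id) hi)
    have hi' : i ∈ I := hi
    show z i ∈ v i
    rw [hz i hlt]
    exact (hv i hi').2
  have hvan : ∀ h : ℕ → Bool, (∀ i < I.sup id + 1, h i = false) → φ h = false := by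
    intro h hh
    have hC := Filter.inter_mem hu' (bxor_preimage_residual hu' h)
    obtain ⟨x, hx1, hx2, hx3⟩ := (dense_of_mem_residual hC).inter_open_nonempty _
      (agree_isOpen y (I.sup id + 1)) ⟨y, fun _ _ => rfl⟩
    have h1 : φ x = false := (hmemB x).1 (hx2.2 (hcyl x hx1))
    have h2 : φ (bxor x h) = false := by
      have hx3' : bxor x h ∈ ({x | φ x = true}ᶜ : Set (ℕ → Bool)) ↔ bxor x h ∈ u := hx3
      refine (hmemB _).1 (hx3'.2 (hcyl _ fun i hi => ?_))
      simp only [bxor, hh i hi, Bool.xor_false]
      exact hx1 i hi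
    rw [hadd, h1] at h2
    simpa using h2
  refine IsLocallyConstant.continuous ?_
  rw [IsLocallyConstant.iff_exists_open]
  intro x
  refine ⟨{z | ∀ i < I.sup id + 1, z i = x i}, agree_isOpen x _, fun _ _ => rfl, fun z hz => ?_⟩
  have h1 := hvan (bxor z x) (fun i hi => by simp [bxor, hz i hi])
  rw [hadd] at h1
  revert h1
  cases φ z <;> cases φ x <;> simp

/-- Automorphisms of the Turing degrees induced by additive bijections of Cantor space with the
property of Baire (in particular Borel ones) are trivial. -/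
theorem main_baire (π : TDeg ≃o TDeg) (F : (ℕ → Bool) ≃ (ℕ → Bool))
    (hF : ∀ x y n, F (fun i => xor (x i) (y i)) n = xor (F x n) (F y n))
    (hm : ∀ n, BaireMeasurableSet {x | F x n = true})
    (hπ : ∀ x, π (deg x) = deg (F x)) : π = OrderIso.refl TDeg := by
  have hcont : Continuous F := continuous_pi fun n =>
    additive_continuous (φ := fun x => F x n) (fun x y => hF x y n) (hm n)
  exact main_linear π (Continuous.homeoOfEquivCompactToT2 (f := F) hcont) hF hπ

end Vale.Agent.Lib.P327
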