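import Vale.Agent.Lib.P327.Baire

/-!
Step-bounded runs on finite oracles and unbounded search.
-/

namespace Vale.Agent.Lib.P327

open Encodable

/-- Step-bounded run of a functional on finite oracles. -/
theorem exists_run (c : OC) : ∃ run : ℕ × List Bool × ℕ → Option ℕ, Primrec run ∧
    (∀ k ρ n v, run (k, ρ, n) = some v → v ∈ c.eval (orcL ρ) n) ∧
    (∀ ρ n v, v ∈ c.eval (orcL ρ) n → ∃ k0, ∀ k, k0 ≤ k → run (k, ρ, n) = some v) := by
  have h := eval_orcL_partrec c
  obtain ⟨C, hC⟩ := Nat.Partrec.Code.exists_code.1 h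
  refine ⟨fun p => Nat.Partrec.Code.evaln p.1 C (encode (p.2.1, p.2.2)), ?_, ?_, ?_⟩
  · exact Nat.Partrec.Code.primrec_evaln.comp (Primrec.pair (Primrec.pair Primrec.fst
      (Primrec.const C)) (Primrec.encode.comp Primrec.snd))
  · intro k ρ n v hv
    have h1 := Nat.Partrec.Code.evaln_sound (k := k) (c := C) (n := encode (ρ, n)) (x := v) hv
    rw [hC] at h1
    simpa using h1
  · intro ρ n v hv
    have h1 : v ∈ Nat.Partrec.Code.eval C (encode (ρ, n)) := by
      rw [hC]
      simpa using hv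
    obtain ⟨k0, hk0⟩ := Nat.Partrec.Code.evaln_complete.1 h1
    refine ⟨k0, fun k hk => ?_⟩
    exact Nat.Partrec.Code.evaln_mono hk hk0

/-- Unbounded search for a witness of a primitive recursive test is computable. -/
theorem search {α β σ : Type*} [Primcodable α] [Primcodable β] [Primcodable σ]
    {test : α → β → Option σ} (ht : Primrec₂ test) (hex : ∀ a, ∃ b s, test a b = some s) :
    ∃ g : α → σ, Computable g ∧ ∀ a, ∃ b, test a b = some (g a) := by
  let f : α → ℕ → Option σ := fun a w => (decode (α := β) w).bind (test a)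
  have hf : Primrec₂ f := Primrec.option_bind (Primrec.decode.comp Primrec.snd)
    (ht.comp (Primrec.fst.comp Primrec.fst) Primrec.snd).to₂
  have hp := Partrec.rfindOpt hf.to_comp
  have hdom : ∀ a, (Nat.rfindOpt (f a)).Dom := by
    intro a
    obtain ⟨b, s, hs⟩ := hex a
    exact Nat.rfindOpt_dom.2 ⟨encode b, s, by simp [f, hs]⟩
  refine ⟨fun a => (Nat.rfindOpt (f a)).get (hdom a),
    hp.of_eq_tot fun a => Part.get_mem _, fun a => ?_⟩
  obtain ⟨w, hw⟩ := Nat.rfindOpt_spec (Part.get_mem (hdom a))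
  simp only [f, Option.mem_def, Option.bind_eq_some_iff] at hw
  obtain ⟨b, -, hb⟩ := hw
  exact ⟨b, hb⟩

end Vale.Agent.Lib.P327
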